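import Crest.Agent.R171.Defs

/-! Row 171: monomial elements of Steinberg groups and their action on the generators. -/

set_option autoImplicit false

open scoped commutatorElement

namespace Crest.Agent.R171

variable {I R : Type} [DecidableEq I] [CommRing R]

theorem Mono.one : Mono (1 : SG I R) 1 1 := by
  intro Λ _ e h i j a
  simp

theorem Mono.congr {g : SG I R} {σ σ' : Equiv.Perm I} {d d' : I → Rˣ} (h : Mono g σ d)
    (hσ : σ = σ') (hd : ∀ i, d i = d' i) : Mono g σ' d' := by
  obtain rfl := hσ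
  obtain rfl : d = d' := funext hd
  exact h

theorem Mono.mul {g g' : SG I R} {σ σ' : Equiv.Perm I} {d d' : I → Rˣ} (h : Mono g σ d)
    (h' : Mono g' σ' d') : Mono (g * g') (σ * σ') fun i => d (σ' i) * d' i := by
  intro Λ _ e he i j a
  rw [map_mul, Units.val_mul, mul_assoc, h' Λ e he, h Λ e he, Units.val_mul, mul_assoc]
  rfl

theorem Mono.inv {g : SG I R} {σ : Equiv.Perm I} {d : I → Rˣ} (h : Mono g σ d) :
    Mono g⁻¹ σ⁻¹ fun i => (d (σ⁻¹ i))⁻¹ := by
  intro Λ _ e he i j a
  have h1 := h Λ e he (σ⁻¹ i) j (((d (σ⁻¹ i))⁻¹ : Rˣ) * a)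
  rw [show σ (σ⁻¹ i) = i by simp, Units.mul_inv_cancel_left] at h1
  rw [← h1, ← mul_assoc, ← Units.val_mul, ← map_mul, inv_mul_cancel, map_one, Units.val_one,
    one_mul]

/-- diagonal case of `Mono.mul` -/
theorem Mono.dmul {g g' : SG I R} {d d' : I → Rˣ} (h : Mono g 1 d) (h' : Mono g' 1 d') :
    Mono (g * g') 1 fun i => d i * d' i := (h.mul h').congr (mul_one _) fun _ => rfl

/-- diagonal case of `Mono.inv` -/
theorem Mono.dinv {g : SG I R} {d : I → Rˣ} (h : Mono g 1 d) : Mono g⁻¹ 1 fun i => (d i)⁻¹ :=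
  h.inv.congr inv_one fun _ => rfl

namespace Act

section two
variable {Λ : Type} [Ring Λ] {e : I → I → R → Λ}

theorem x_pq (h : MU e) {p q : I} (hpq : p ≠ q) (j : I) (a u v : R) :
    (h.rep (X p q a) : Λ) * (e p j u + e q j v) = e p j (u + a * v) + e q j v := by
  rw [h.rep_X hpq, add_mul, one_mul, mul_add, h.mul_ne hpq.symm, h.mul_eq, h.add]
  abel

theorem x_qp (h : MU e) {p q : I} (hpq : p ≠ q) (j : I) (a u v : R) :
    (h.rep (X q p a) : Λ) * (e p j u + e q j v) = e p j u + e q j (v + a * u) := by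
  rw [add_comm (e p j u), x_pq h hpq.symm, add_comm]

theorem x_ne (h : MU e) {p q i : I} (hpq : p ≠ q) (hi : q ≠ i) (j : I) (a u : R) :
    (h.rep (X p q a) : Λ) * e i j u = e i j u := by
  rw [h.rep_X hpq, add_mul, one_mul, h.mul_ne hi, add_zero]

omit [DecidableEq I] in
theorem as_p (h : MU e) (p q j : I) (u : R) : e p j u = e p j u + e q j 0 := by
  rw [h.zero, add_zero]

omit [DecidableEq I] in
theorem as_q (h : MU e) (p q j : I) (u : R) : e q j u = e p j 0 + e q j u := by
  rw [h.zero, zero_add]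

end two

end Act

open Act in
theorem mono_hw {p q : I} (hpq : p ≠ q) {a b : R} {s : Rˣ} (hs : (s : R) = 1 + a * b) :
    Mono (hw p q a b ((s⁻¹ : Rˣ) : R)) 1 (dg p q s) := by
  intro Λ _ e h i j c
  have hs' : (1 + a * b) * ((s⁻¹ : Rˣ) : R) = 1 := by rw [← hs, Units.mul_inv]
  simp only [hw, map_mul, Units.val_mul, mul_assoc, Equiv.Perm.coe_one, id, dg]
  by_cases hp : i = p
  · subst hp
    rw [if_pos rfl, as_p h i q j c, x_pq h hpq, x_qp h hpq, x_pq h hpq, x_qp h hpq,
      as_p h i q j (s * c)]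
    congr 2
    · rw [hs]; ring
    · linear_combination (-(b * c)) * hs'
  · rw [if_neg hp]
    by_cases hq : i = q
    · subst hq
      rw [if_pos rfl, as_q h p i j c, x_pq h hpq, x_qp h hpq, x_pq h hpq, x_qp h hpq,
        as_q h p i j (_ * c)]
      congr 2
      · linear_combination (-(a * c)) * hs'
      · linear_combination (-c + a * b * c * ((s⁻¹ : Rˣ) : R)) * hs'
    · rw [if_neg hq, x_ne h hpq (Ne.symm hq), x_ne h hpq.symm (Ne.symm hp),
        x_ne h hpq (Ne.symm hq), x_ne h hpq.symm (Ne.symm hp), Units.val_one, one_mul]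

theorem mono_HH {p q : I} (hpq : p ≠ q) (u : Rˣ) : Mono (HH p q u) 1 (dg p q u) :=
  mono_hw hpq (by ring)

open Act in
theorem mono_ww {p q : I} (hpq : p ≠ q) :
    Mono (ww p q : SG I R) (Equiv.swap p q) fun i => if i = p then -1 else 1 := by
  intro Λ _ e h i j c
  simp only [ww, map_mul, Units.val_mul, mul_assoc]
  by_cases hp : i = p
  · subst hp
    rw [if_pos rfl, as_p h i q j c, x_pq h hpq, x_qp h hpq, x_pq h hpq, Equiv.swap_apply_left,
      as_q h i q j (_ * c)]
    congr 2
    · ring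
    · simp
  · rw [if_neg hp]
    by_cases hq : i = q
    · subst hq
      rw [as_q h p i j c, x_pq h hpq, x_qp h hpq, x_pq h hpq, Equiv.swap_apply_right,
        as_p h p i j (_ * c)]
      congr 2
      · simp
      · ring
    · rw [x_ne h hpq (Ne.symm hq), x_ne h hpq.symm (Ne.symm hp), x_ne h hpq (Ne.symm hq),
        Equiv.swap_apply_of_ne_of_ne hp hq, Units.val_one, one_mul]

namespace Act

omit [DecidableEq I] in
/-- a commuting family of one-parameter subgroups gives a homomorphism on `I →₀ R` -/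
theorem exists_phi {G : Type} [Group G] (x : I → R → G)
    (hadd : ∀ k a b, x k a * x k b = x k (a + b))
    (hcom : ∀ k k' a b, Commute (x k a) (x k' b)) :
    ∃ φ : (I →₀ R) → G, (∀ v w, φ (v + w) = φ v * φ w) ∧ ∀ k s, φ (Finsupp.single k s) = x k s := by
  let K : Subgroup G := Subgroup.closure {g | ∃ k s, g = x k s}
  have hK : ∀ g ∈ {g | ∃ k s, g = x k s}, ∀ g' ∈ {g | ∃ k s, g = x k s}, g * g' = g' * g := by
    rintro _ ⟨k, s, rfl⟩ _ ⟨k', s', rfl⟩
    exact hcom k k' s s'
  have : IsMulCommutative K := Subgroup.isMulCommutative_closure hK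
  let : CommGroup K := { mul_comm := fun a b => IsMulCommutative.is_comm.comm a b }
  let f : I → R →+ Additive K := fun k => AddMonoidHom.mk'
    (fun s => Additive.ofMul ⟨x k s, Subgroup.subset_closure ⟨k, s, rfl⟩⟩) (fun a b => by
      rw [← ofMul_mul]
      exact congrArg Additive.ofMul (Subtype.ext (hadd k a b).symm))
  refine ⟨fun v => ((Finsupp.liftAddHom f v).toMul : K), fun v w => ?_, fun k s => ?_⟩
  · simp only [map_add, toMul_add]
    rfl
  · simp only [Finsupp.liftAddHom_apply_single]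
    rfl

/-- equivariance of `φ` is checked on generators -/
theorem equivar {l : I} (φ : (I →₀ R) → SG I R) (hφ : ∀ v w, φ (v + w) = φ v * φ w)
    (ρ : SG I R → (I →₀ R) →ₗ[R] (I →₀ R)) (hmul : ∀ g g' v, ρ (g * g') v = ρ g (ρ g' v))
    (hone : ∀ v, ρ 1 v = v)
    (hgen : ∀ i j r k s, i ≠ j → i ≠ l → j ≠ l →
      X i j r * φ (Finsupp.single k s) * (X i j r)⁻¹ = φ (ρ (X i j r) (Finsupp.single k s)))
    {g : SG I R} (hg : g ∈ Gp R (· ≠ l)) (v : I →₀ R) : g * φ v * g⁻¹ = φ (ρ g v) := by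
  have h0 : φ 0 = 1 := by
    have := hφ 0 0
    rw [add_zero] at this
    exact mul_eq_left.1 this.symm
  induction hg using Subgroup.closure_induction generalizing v with
  | mem g hg =>
    obtain ⟨i, j, r, hi, hj, rfl⟩ := hg
    by_cases hij : i = j
    · subst hij
      simp [X_self, hone]
    · induction v using Finsupp.induction_linear with
      | zero => simp [h0]
      | add v w hv hw =>
        rw [map_add, hφ, hφ, ← hv, ← hw]
        group
      | single k s => exact hgen i j r k s hij hi hj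
  | one => simp [hone]
  | mul g g' _ _ ih ih' =>
    rw [hmul, ← ih, ← ih']
    group
  | inv g _ ih =>
    have := ih (ρ g⁻¹ v)
    rw [← hmul, mul_inv_cancel, hone] at this
    rw [← this]
    group

/-- the standard matrix units -/
noncomputable def E (i j : I) (a : R) : Module.End R (I →₀ R) :=
  a • ((Finsupp.lsingle i : R →ₗ[R] (I →₀ R)) ∘ₗ Finsupp.lapply j)

omit [DecidableEq I] in
theorem E_apply (i j : I) (a : R) (v : I →₀ R) : E i j a v = Finsupp.single i (a * v j) := by
  simp [E]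

omit [DecidableEq I] in
theorem E_mu : MU (E : I → I → R → Module.End R (I →₀ R)) where
  add i j a b := by simp only [E, add_smul]
  mul_eq i j l a b := by
    refine LinearMap.ext fun v => ?_
    simp only [Module.End.mul_apply, E_apply, Finsupp.single_eq_same, mul_assoc]
  mul_ne {j k} h i l a b := by
    refine LinearMap.ext fun v => ?_
    simp only [Module.End.mul_apply, E_apply, Finsupp.single_eq_of_ne h, mul_zero,
      Finsupp.single_zero, LinearMap.zero_apply]

omit [DecidableEq I] in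
theorem E_mu' : MU (fun (i j : I) (a : R) => MulOpposite.op (E j i a : Module.End R (I →₀ R))) where
  add i j a b := by rw [(E_mu (I := I) (R := R)).add, MulOpposite.op_add]
  mul_eq i j l a b := by rw [← MulOpposite.op_mul, (E_mu (I := I) (R := R)).mul_eq, mul_comm]
  mul_ne {j k} h i l a b := by
    rw [← MulOpposite.op_mul, (E_mu (I := I) (R := R)).mul_ne h.symm, MulOpposite.op_zero]

theorem col {g : SG I R} {σ : Equiv.Perm I} {d : I → Rˣ} (h : Mono g σ d) {l : I}
    (hl : g ∈ Gp R (· ≠ l)) (i : I) (a : R) : g * X i l a * g⁻¹ = X (σ i) l (d i * a) := by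
  obtain ⟨φ, hφ, hs⟩ := exists_phi (G := SG I R) (fun k s => X k l s) (fun k => X_add k l)
    (fun k k' a b => by
      by_cases hk : k = l
      · rw [hk, X_self]; exact Commute.one_left _
      by_cases hk' : k' = l
      · rw [hk', X_self]; exact Commute.one_right _
      exact X_sys.com hk hk' (Ne.symm hk') hk a b)
  have key := equivar φ hφ (fun g => ((E_mu (I := I) (R := R)).rep g : Module.End R (I →₀ R)))
    (fun g g' v => by rw [map_mul, Units.val_mul, Module.End.mul_apply])
    (fun v => by simp) (fun i j r k s hij hi hj => by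
      rw [(E_mu (I := I) (R := R)).rep_X hij, LinearMap.add_apply, Module.End.one_apply, E_apply,
        add_comm, hφ, hs, hs]
      by_cases hk : k = j
      · subst hk
        rw [Finsupp.single_eq_same, ← X_sys.st hij hj hi, commutatorElement_def]
        group
      · rw [Finsupp.single_eq_of_ne (Ne.symm hk), mul_zero, X_zero, one_mul]
        by_cases hkl : k = l
        · rw [hkl, X_self]; simp
        · rw [(X_sys.com hij hkl (Ne.symm hk) hi r s).eq, mul_inv_cancel_right]) hl
    (Finsupp.single i a)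
  have h1 := congrArg (fun T : Module.End R (I →₀ R) => T (Finsupp.single i 1))
    (h _ _ E_mu i i a)
  simp only [Module.End.mul_apply, E_apply, Finsupp.single_eq_same, mul_one] at h1
  rw [h1, hs, hs] at key
  exact key

theorem row {g : SG I R} {σ : Equiv.Perm I} {d : I → Rˣ} (h : Mono g σ d) {l : I}
    (hl : g ∈ Gp R (· ≠ l)) (j : I) (a : R) :
    g * X l j a * g⁻¹ = X l (σ j) (a * ((d j)⁻¹ : Rˣ)) := by
  obtain ⟨φ, hφ, hs⟩ := exists_phi (G := SG I R) (fun k s => X l k s) (fun k => X_add l k)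
    (fun k k' a b => by
      by_cases hk : l = k
      · rw [← hk, X_self]; exact Commute.one_left _
      by_cases hk' : l = k'
      · rw [← hk', X_self]; exact Commute.one_right _
      exact X_sys.com hk hk' (Ne.symm hk) hk' a b)
  have key := equivar φ hφ
    (fun g => (((E_mu' (I := I) (R := R)).rep g⁻¹ : (Module.End R (I →₀ R))ᵐᵒᵖˣ) :
      (Module.End R (I →₀ R))ᵐᵒᵖ).unop)
    (fun g g' v => by
      rw [mul_inv_rev, map_mul, Units.val_mul, MulOpposite.unop_mul, Module.End.mul_apply])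
    (fun v => by simp) (fun i j r k s hij hi hj => by
      rw [X_inv, (E_mu' (I := I) (R := R)).rep_X hij, MulOpposite.unop_add, MulOpposite.unop_one,
        MulOpposite.unop_op, LinearMap.add_apply, Module.End.one_apply, E_apply, add_comm, hφ, hs,
        hs, ← X_inv]
      by_cases hk : k = i
      · subst hk
        rw [Finsupp.single_eq_same, neg_mul, ← X_inv, mul_comm r s,
          ← X_sys.st (Ne.symm hi) hij (Ne.symm hj), commutatorElement_def]
        group
      · rw [Finsupp.single_eq_of_ne (Ne.symm hk), mul_zero, X_zero, one_mul]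
        by_cases hkl : l = k
        · rw [← hkl, X_self]; simp
        · rw [(X_sys.com hij hkl hj (Ne.symm hk) r s).eq, mul_inv_cancel_right]) hl
    (Finsupp.single j a)
  have h1 : (((E_mu' (I := I) (R := R)).rep g⁻¹ : (Module.End R (I →₀ R))ᵐᵒᵖˣ) :
      (Module.End R (I →₀ R))ᵐᵒᵖ).unop (Finsupp.single j a) =
      Finsupp.single (σ j) (a * ((d j)⁻¹ : Rˣ)) := by
    ext i
    have h2 := congrArg (fun T : (Module.End R (I →₀ R))ᵐᵒᵖ => T.unop (Finsupp.single j a) i)
      (h.inv _ _ E_mu' i i 1)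
    simp only [MulOpposite.unop_mul, MulOpposite.unop_op, Module.End.mul_apply, E_apply,
      Finsupp.single_eq_same, mul_one, one_mul] at h2
    rw [h2]
    by_cases hi : i = σ j
    · subst hi
      rw [show σ⁻¹ (σ j) = j by simp, Finsupp.single_eq_same, Finsupp.single_eq_same, mul_comm]
    · have : σ⁻¹ i ≠ j := fun h' => hi (by simp [← h'])
      rw [Finsupp.single_eq_of_ne this, Finsupp.single_eq_of_ne hi, mul_zero]
  rw [h1, hs, hs] at key
  exact key

end Act

/-- conjugation by a monomial element that avoids an index `l` -/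
theorem Mono.act {g : SG I R} {σ : Equiv.Perm I} {d : I → Rˣ} (h : Mono g σ d) {l : I}
    (hl : g ∈ Gp R (· ≠ l)) (hσ : σ l = l) {i j : I} (hij : i ≠ j) (hi : i ≠ l) (hj : j ≠ l)
    (a : R) : g * X i j a * g⁻¹ = X (σ i) (σ j) (d i * a * ((d j)⁻¹ : Rˣ)) := by
  have hi' : σ i ≠ l := fun h' => hi (σ.injective (h'.trans hσ.symm))
  have hj' : σ j ≠ l := fun h' => hj (σ.injective (h'.trans hσ.symm))
  have h1 := X_sys.st (R := R) hi (Ne.symm hj) hij a 1
  have h2 := X_sys.st (R := R) hi' (Ne.symm hj') (σ.injective.ne hij) (d i * a)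
    (1 * ((d j)⁻¹ : Rˣ))
  rw [mul_one] at h1
  rw [← Act.col h hl, ← Act.row h hl, one_mul] at h2
  rw [← h1, ← h2, commutatorElement_def, commutatorElement_def]
  group

/-- elements with trivial matrix that avoid an index are central -/
theorem Mono.central {g : SG I R} (h : Mono g 1 1) {l : I} (hl : g ∈ Gp R (· ≠ l))
    (g' : SG I R) : Commute g g' := by
  have key : g' ∈ Subgroup.centralizer {g} := by
    refine SG.mem_of_X (fun i j a hij => ?_) g'
    rw [Subgroup.mem_centralizer_singleton_iff]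
    symm
    rw [← mul_inv_eq_iff_eq_mul]
    by_cases hi : i = l
    · subst hi
      simpa using Act.row h hl j a
    by_cases hj : j = l
    · subst hj
      simpa using Act.col h hl i a
    simpa using h.act hl rfl hij hi hj a
  exact (Subgroup.mem_centralizer_singleton_iff.1 key).symm

theorem exists_avoid (g : SG ℕ R) : ∃ N, ∀ l, N ≤ l → g ∈ Gp R (· ≠ l) := by
  let K : Subgroup (SG ℕ R) :=
    { carrier := {g | ∃ N, ∀ l, N ≤ l → g ∈ Gp R (· ≠ l)}
      mul_mem' := by
        rintro g g' ⟨N, h⟩ ⟨N', h'⟩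
        exact ⟨N + N', fun l hl => mul_mem (h l (by omega)) (h' l (by omega))⟩
      one_mem' := ⟨0, fun l _ => one_mem _⟩
      inv_mem' := by
        rintro g ⟨N, h⟩
        exact ⟨N, fun l hl => inv_mem (h l hl)⟩ }
  refine SG.mem_of_X (K := K) (fun i j a _ => ⟨i + j + 1, fun l hl => ?_⟩) g
  exact X_mem_Gp (P := (· ≠ l)) (by omega) (by omega) a

theorem Mono.act_nat {g : SG ℕ R} {σ : Equiv.Perm ℕ} {d : ℕ → Rˣ} (h : Mono g σ d)
    (hσ : ∃ N, ∀ l, N ≤ l → σ l = l) {i j : ℕ} (hij : i ≠ j) (a : R) :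
    g * X i j a * g⁻¹ = X (σ i) (σ j) (d i * a * ((d j)⁻¹ : Rˣ)) := by
  obtain ⟨N, hN⟩ := hσ
  obtain ⟨N', hN'⟩ := exists_avoid g
  exact h.act (hN' (N + N' + i + j + 1) (by omega)) (hN _ (by omega)) hij (by omega) (by omega) a

theorem Mono.central_nat {g : SG ℕ R} (h : Mono g 1 1) (g' : SG ℕ R) : Commute g g' := by
  obtain ⟨N, hN⟩ := exists_avoid g
  exact h.central (hN N le_rfl) g'

/-- a diagonal element that is scalar on `P` commutes with `Gp R P` -/
theorem Mono.commute_Gp {g g' : SG ℕ R} {d : ℕ → Rˣ} (h : Mono g 1 d) {P : ℕ → Prop}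
    (hd : ∀ i j, P i → P j → d i = d j) (hg' : g' ∈ Gp R P) : Commute g g' := by
  induction hg' using Subgroup.closure_induction with
  | mem g' hg' =>
    obtain ⟨i, j, a, hi, hj, rfl⟩ := hg'
    by_cases hij : i = j
    · rw [hij, X_self]; exact Commute.one_right _
    have := h.act_nat ⟨0, fun _ _ => rfl⟩ hij a
    rw [hd i j hi hj, mul_comm (d j : R) a, Units.mul_inv_cancel_right] at this
    exact mul_inv_eq_iff_eq_mul.1 this
  | one => exact Commute.one_right _
  | mul _ _ _ _ ih ih' => exact ih.mul_right ih'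
  | inv _ _ ih => exact ih.inv_right

theorem mp_mem_Gp {J R' : Type} [DecidableEq J] [CommRing R'] (e : I ↪ J) (φ : R →+* R')
    {P : J → Prop} (hP : ∀ i, P (e i)) (g : SG I R) : mp e φ g ∈ Gp R' P := by
  refine SG.mem_of_X (K := (Gp R' P).comap (mp e φ)) (fun i j a _ => ?_) g
  rw [Subgroup.mem_comap, mp_X]
  exact X_mem_Gp (hP i) (hP j) _

theorem Dat.mono_T (D : Dat R) : Mono D.T 1 D.dT := by
  refine (((mono_HH (by decide) D.τ).dmul (mono_HH (by decide) D.τ).dinv).dmul
    (((mono_HH (by decide) D.τ).dmul (mono_HH (by decide) D.τ)).dmul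
      (mono_HH (by decide) D.τ))).congr rfl fun i => ?_
  by_cases hi : i < 10
  · interval_cases i <;> simp [dg, Dat.dT]
  · simp only [dg, Dat.dT]
    split_ifs <;> first | omega | simp

theorem Dat.T_comm₁ (D : Dat R) (g : SG (Fin 5) R) : Commute D.T (ι₁ R g) := by
  refine D.mono_T.commute_Gp (P := (· < 5)) (fun i j hi hj => ?_)
    (mp_mem_Gp _ _ (fun i => i.2) g)
  simp only [Dat.dT, if_pos hi, if_pos hj]

theorem Dat.T_comm₂ (D : Dat R) (g : SG (Fin 5) R) : Commute D.T (ι₂ R g) := by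
  refine D.mono_T.commute_Gp (P := fun i => 5 ≤ i ∧ i < 10) (fun i j hi hj => ?_)
    (mp_mem_Gp _ _ (fun i => ?_) g)
  · simp only [Dat.dT, if_neg (not_lt.2 hi.1), if_neg (not_lt.2 hj.1), if_pos hi.2, if_pos hj.2]
  · have := i.2
    change 5 ≤ i.val + 5 ∧ i.val + 5 < 10
    omega

theorem ι_comm (g g' : SG (Fin 5) R) : Commute (ι₁ R g) (ι₂ R g') := by
  have h1 : ι₁ R g ∈ Gp R (· < 5) := mp_mem_Gp _ _ (fun i => i.2) g
  have h2 : ι₂ R g' ∈ Gp R (5 ≤ ·) := mp_mem_Gp _ _ (fun i => Nat.le_add_left 5 i.val) g'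
  generalize ι₁ R g = u at h1
  generalize ι₂ R g' = v at h2
  induction h1 using Subgroup.closure_induction with
  | mem u hu =>
    obtain ⟨i, j, a, hi, hj, rfl⟩ := hu
    by_cases hij : i = j
    · rw [hij, X_self]; exact Commute.one_left _
    induction h2 using Subgroup.closure_induction with
    | mem v hv =>
      obtain ⟨k, l, b, hk, hl, rfl⟩ := hv
      by_cases hkl : k = l
      · rw [hkl, X_self]; exact Commute.one_right _
      exact X_sys.com hij hkl (by omega) (by omega) a b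
    | one => exact Commute.one_right _
    | mul _ _ _ _ ih ih' => exact ih.mul_right ih'
    | inv _ _ ih => exact ih.inv_right
  | one => exact Commute.one_left _
  | mul _ _ _ _ ih ih' => exact ih.mul_left ih'
  | inv _ _ ih => exact ih.inv_left

theorem Dat.mono_k (D : Dat R) : Mono D.k 1 1 := by
  refine ((mono_hw (s := D.s) (by decide) (by rw [D.hs, mul_one])).dmul
    (mono_hw (s := D.s) (by decide) D.hs).dinv).congr rfl fun i => ?_
  simp

theorem Dat.mono_ι₁_k (D : Dat R) : Mono (ι₁ R D.k) 1 1 := by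
  have : ι₁ R D.k = hw 0 1 (D.a * D.y ^ 2) 1 ((D.s⁻¹ : Rˣ) : R) *
      (hw 0 1 D.a (D.y ^ 2) ((D.s⁻¹ : Rˣ) : R))⁻¹ := by
    simp only [Dat.k, ι₁, map_mul, map_inv, mp_hw, RingHom.id_apply]
    rfl
  rw [this]
  refine ((mono_hw (s := D.s) (by decide) (by rw [D.hs, mul_one])).dmul
    (mono_hw (s := D.s) (by decide) D.hs).dinv).congr rfl fun i => ?_
  simp

/-- conjugate the central element `ι₁ k` by `ww 0 5 * ww 1 6` -/
theorem Dat.k_eq (D : Dat R) : ι₁ R D.k = ι₂ R D.k := by
  have h1 : ι₁ R D.k = hw 0 1 (D.a * D.y ^ 2) 1 ((D.s⁻¹ : Rˣ) : R) *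
      (hw 0 1 D.a (D.y ^ 2) ((D.s⁻¹ : Rˣ) : R))⁻¹ := by
    simp only [Dat.k, ι₁, map_mul, map_inv, mp_hw, RingHom.id_apply]
    rfl
  have h2 : ι₂ R D.k = hw 5 6 (D.a * D.y ^ 2) 1 ((D.s⁻¹ : Rˣ) : R) *
      (hw 5 6 D.a (D.y ^ 2) ((D.s⁻¹ : Rˣ) : R))⁻¹ := by
    simp only [Dat.k, ι₂, map_mul, map_inv, mp_hw, RingHom.id_apply]
    rfl
  have hm := (mono_ww (R := R) (p := (0 : ℕ)) (q := 5) (by decide)).mul
    (mono_ww (R := R) (p := (1 : ℕ)) (q := 6) (by decide))
  set w : SG ℕ R := ww 0 5 * ww 1 6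
  have hσ : ∃ N, ∀ l, N ≤ l → (Equiv.swap (0 : ℕ) 5 * Equiv.swap 1 6 : Equiv.Perm ℕ) l = l :=
    ⟨7, fun l hl => by
      rw [Equiv.Perm.mul_apply, Equiv.swap_apply_of_ne_of_ne (x := l) (by omega) (by omega),
        Equiv.swap_apply_of_ne_of_ne (by omega) (by omega)]⟩
  have e01 : ∀ a : R, MulAut.conj w (X 0 1 a) = X 5 6 a := fun a => by
    rw [MulAut.conj_apply, hm.act_nat hσ (by decide)]
    simp [Equiv.swap_apply_def]
  have e10 : ∀ a : R, MulAut.conj w (X 1 0 a) = X 6 5 a := fun a => by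
    rw [MulAut.conj_apply, hm.act_nat hσ (by decide)]
    simp [Equiv.swap_apply_def]
  have h3 : MulAut.conj w (ι₁ R D.k) = ι₂ R D.k := by
    rw [h1, h2]
    simp only [hw, map_mul, map_inv, e01, e10]
  rw [← h3, MulAut.conj_apply, ← (D.mono_ι₁_k.central_nat w).eq, mul_inv_cancel_right]

end Crest.Agent.R171
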