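import Crest.Agent.R171.Defs

/-! Row 171: Steinberg groups are perfect and centrally closed (Kervaire, Steinberg). -/

set_option autoImplicit false

open scoped commutatorElement

namespace Crest.Agent.R171

variable {I R : Type} [DecidableEq I] [CommRing R]

namespace CC

section central
variable {E G : Type} [Group E] [Group G] {p : E →* G}

theorem comm_congr (hZ : ∀ z, p z = 1 → ∀ e, Commute z e) {u u' v v' : E} (hu : p u = p u')
    (hv : p v = p v') : ⁅u, v⁆ = ⁅u', v'⁆ := by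
  obtain ⟨z, hz, rfl⟩ : ∃ z, p z = 1 ∧ u = z * u' :=
    ⟨u * u'⁻¹, by rw [map_mul, map_inv, hu, mul_inv_cancel], by group⟩
  obtain ⟨w, hw, rfl⟩ : ∃ w, p w = 1 ∧ v = w * v' :=
    ⟨v * v'⁻¹, by rw [map_mul, map_inv, hv, mul_inv_cancel], by group⟩
  have h1 : ⁅z * u', w * v'⁆ = z * (u' * (w * v') * u'⁻¹) * z⁻¹ * (w * v')⁻¹ := by
    simp only [commutatorElement_def]; group
  have h2 : u' * (w * v') * u'⁻¹ * (w * v')⁻¹ = u' * w * (v' * u'⁻¹ * v'⁻¹) * w⁻¹ := by group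
  rw [h1, (hZ z hz _).mul_inv_cancel, h2, ← (hZ w hw u').eq, mul_assoc w,
    (hZ w hw _).mul_inv_cancel, commutatorElement_def]
  group

theorem commute_comm (hZ : ∀ z, p z = 1 → ∀ e, Commute z e) {w u v : E}
    (hu : Commute (p w) (p u)) (hv : Commute (p w) (p v)) : Commute w ⁅u, v⁆ := by
  have h : w * ⁅u, v⁆ * w⁻¹ = ⁅u, v⁆ := by
    rw [conjugate_commutatorElement]
    refine comm_congr hZ ?_ ?_
    · rw [map_mul, map_mul, map_inv, hu.mul_inv_cancel]
    · rw [map_mul, map_mul, map_inv, hv.mul_inv_cancel]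
  exact mul_inv_eq_iff_eq_mul.1 h

variable {x : I → I → R → G}

omit [DecidableEq I] in
theorem commute_lift (hZ : ∀ z, p z = 1 → ∀ e, Commute z e) (hp : Function.Surjective p)
    (h5 : ∀ i j k l : I, ∃ m, m ≠ i ∧ m ≠ j ∧ m ≠ k ∧ m ≠ l) (hx : StSys x) {i j k l : I}
    (hij : i ≠ j) (hkl : k ≠ l) (hjk : j ≠ k) (hil : i ≠ l) {a b : R} {u w : E}
    (hu : p u = x i j a) (hw : p w = x k l b) : Commute u w := by
  obtain ⟨m, hi, hj, hk, hl⟩ := h5 i j k l
  obtain ⟨y₁, h₁⟩ := hp (x i m a)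
  obtain ⟨y₂, h₂⟩ := hp (x m j 1)
  have hc : Commute w ⁅y₁, y₂⁆ := by
    refine commute_comm hZ ?_ ?_
    · rw [hw, h₁]; exact (hx.com hi.symm hkl hk hil a b).symm
    · rw [hw, h₂]; exact (hx.com hj hkl hjk hl 1 b).symm
  have he : ⁅u, w⁆ = ⁅⁅y₁, y₂⁆, w⁆ := by
    refine comm_congr hZ ?_ rfl
    rw [map_commutatorElement, h₁, h₂, hx.st hi.symm hj hij, mul_one, hu]
  rw [← commutatorElement_eq_one_iff_commute, he, commutatorElement_eq_one_iff_commute]
  exact hc.symm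

omit [DecidableEq I] in
theorem jacobi (hZ : ∀ z, p z = 1 → ∀ e, Commute z e) (hp : Function.Surjective p)
    (h5 : ∀ i j k l : I, ∃ m, m ≠ i ∧ m ≠ j ∧ m ≠ k ∧ m ≠ l) (hx : StSys x) {h i j k : I}
    (hhi : h ≠ i) (hhj : h ≠ j) (hhk : h ≠ k) (hij : i ≠ j) (hik : i ≠ k) (hjk : j ≠ k)
    {a b c : R} {u v w : E} (hu : p u = x h i a) (hv : p v = x i j b) (hw : p w = x j k c) :
    ⁅⁅u, v⁆, w⁆ = ⁅u, ⁅v, w⁆⁆ := by
  have hc : p ⁅u, v⁆ = x h j (a * b) := by rw [map_commutatorElement, hu, hv, hx.st hhi hij hhj]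
  have he : p ⁅v, w⁆ = x i k (b * c) := by rw [map_commutatorElement, hv, hw, hx.st hij hjk hik]
  have hd : p ⁅⁅u, v⁆, w⁆ = x h k (a * b * c) := by
    rw [map_commutatorElement, hc, hw, hx.st hhj hjk hhk]
  have c1 : Commute u w := commute_lift hZ hp h5 hx hhi hjk hij hhk hu hw
  have c2 : Commute ⁅u, v⁆ ⁅v, w⁆ := commute_lift hZ hp h5 hx hhj hik hij.symm hhk hc he
  have c3 : Commute ⁅v, w⁆ ⁅⁅u, v⁆, w⁆ := commute_lift hZ hp h5 hx hik hhk hhk.symm hik he hd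
  have e1 : u * ⁅v, w⁆ * u⁻¹ = ⁅⁅u, v⁆ * v, w⁆ := by
    rw [conjugate_commutatorElement, c1.mul_inv_cancel]
    congr 1
    simp only [commutatorElement_def]; group
  have e2 : ∀ c v w : E, ⁅c * v, w⁆ = c * ⁅v, w⁆ * c⁻¹ * ⁅c, w⁆ := by
    intro c v w
    simp only [commutatorElement_def]; group
  rw [commutatorElement_def u ⁅v, w⁆, e1, e2, c2.mul_inv_cancel, c3.mul_inv_cancel]

omit [DecidableEq I] in
theorem exists_lift (hZ : ∀ z, p z = 1 → ∀ e, Commute z e) (hp : Function.Surjective p)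
    (h5 : ∀ i j k l : I, ∃ m, m ≠ i ∧ m ≠ j ∧ m ≠ k ∧ m ≠ l) (hx : StSys x) :
    ∃ x' : I → I → R → E, StSys x' ∧ ∀ i j a, i ≠ j → p (x' i j a) = x i j a := by
  choose y hy using fun i j a => hp (x i j a)
  choose m hm using h5
  have h5 : ∀ i j k l : I, ∃ m, m ≠ i ∧ m ≠ j ∧ m ≠ k ∧ m ≠ l := fun i j k l => ⟨_, hm i j k l⟩
  have key : ∀ {h i j k : I}, h ≠ i → h ≠ j → h ≠ k → i ≠ j → i ≠ k → j ≠ k → ∀ b c : R,
      ⁅y h j b, y j k c⁆ = ⁅y h i 1, y i k (b * c)⁆ := by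
    intro h i j k hhi hhj hhk hij hik hjk b c
    have := jacobi hZ hp h5 hx hhi hhj hhk hij hik hjk (hy h i 1) (hy i j b) (hy j k c)
    refine (comm_congr hZ ?_ rfl).trans (this.trans (comm_congr hZ rfl ?_))
    · rw [map_commutatorElement, hy, hy, hy, hx.st hhi hij hhj, one_mul]
    · rw [map_commutatorElement, hy, hy, hy, hx.st hij hjk hik]
  let x' : I → I → R → E := fun h k r => ⁅y h (m h k h k) 1, y (m h k h k) k r⁆
  have hx' : ∀ i j a, i ≠ j → p (x' i j a) = x i j a := by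
    intro i j a hij
    simp only [x']
    rw [map_commutatorElement, hy, hy, hx.st (hm i j i j).1.symm (hm i j i j).2.1 hij, one_mul]
  have heq : ∀ {h j k : I}, h ≠ j → h ≠ k → j ≠ k → ∀ r, x' h k r = ⁅y h j 1, y j k r⁆ := by
    intro h j k hhj hhk hjk r
    by_cases hj : m h k h k = j
    · simp only [x', hj]
    · simp only [x']
      rw [key hhj (hm h k h k).1.symm hhk (Ne.symm hj) hjk (hm h k h k).2.1, one_mul]
  refine ⟨x', ⟨fun {h k} hhk a b => ?_, fun hij hkl hjk hil a b => ?_,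
    fun {i j l} hij hjl hil a b => ?_⟩, hx'⟩
  · obtain ⟨j, hjh, hjk, -, -⟩ := h5 h k h k
    have c1 : Commute (y j k a) (x' h k b) :=
      commute_lift hZ hp h5 hx hjk hhk hhk.symm hjk (hy j k a) (hx' h k b hhk)
    have e2 : ∀ u v v' : E, ⁅u, v * v'⁆ = ⁅u, v⁆ * (v * ⁅u, v'⁆ * v⁻¹) := by
      intro u v v'
      simp only [commutatorElement_def]; group
    have e3 : ⁅y h j 1, y j k (a + b)⁆ = ⁅y h j 1, y j k a * y j k b⁆ :=
      comm_congr hZ rfl (by rw [map_mul, hy, hy, hy, hx.add hjk])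
    rw [heq hjh.symm hhk hjk (a + b), e3, e2, ← heq hjh.symm hhk hjk a, ← heq hjh.symm hhk hjk b,
      c1.mul_inv_cancel]
  · exact commute_lift hZ hp h5 hx hij hkl hjk hil (hx' _ _ a hij) (hx' _ _ b hkl)
  · obtain ⟨n, hi, hj, hl, -⟩ := h5 i j l l
    rw [heq hi.symm hil hl, ← key hi.symm hij hil hj hl hjl]
    exact comm_congr hZ (by rw [hx' _ _ _ hij, hy]) (by rw [hx' _ _ _ hjl, hy])

end central

section ext
variable {S M : Type} [Group S] [AddCommGroup M]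

/-- the central extension defined by a cocycle -/
@[ext] structure Ext (u : S → S → M) (hu : Coc2 u) where
  m : M
  g : S

variable {u : S → S → M}

theorem one_left (hu : Coc2 u) (g : S) : u 1 g = u 1 1 := by
  have := hu 1 1 g
  simp only [mul_one, one_mul, sub_self, zero_add] at this
  exact sub_eq_zero.1 this

theorem one_right (hu : Coc2 u) (g : S) : u g 1 = u 1 1 := by
  have := hu g 1 1
  simp only [mul_one, sub_add_cancel] at this
  exact (sub_eq_zero.1 this).symm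

instance (hu : Coc2 u) : Mul (Ext u hu) := ⟨fun a b => ⟨a.m + b.m + u a.g b.g, a.g * b.g⟩⟩
instance (hu : Coc2 u) : One (Ext u hu) := ⟨⟨-u 1 1, 1⟩⟩
instance (hu : Coc2 u) : Inv (Ext u hu) := ⟨fun a => ⟨-u 1 1 - a.m - u a.g⁻¹ a.g, a.g⁻¹⟩⟩

theorem mul_m {hu : Coc2 u} (a b : Ext u hu) : (a * b).m = a.m + b.m + u a.g b.g := rfl
theorem mul_g {hu : Coc2 u} (a b : Ext u hu) : (a * b).g = a.g * b.g := rfl
theorem one_m {hu : Coc2 u} : (1 : Ext u hu).m = -u 1 1 := rfl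
theorem one_g {hu : Coc2 u} : (1 : Ext u hu).g = 1 := rfl
theorem inv_m {hu : Coc2 u} (a : Ext u hu) : a⁻¹.m = -u 1 1 - a.m - u a.g⁻¹ a.g := rfl
theorem inv_g {hu : Coc2 u} (a : Ext u hu) : a⁻¹.g = a.g⁻¹ := rfl

instance (hu : Coc2 u) : Group (Ext u hu) :=
  Group.ofLeftAxioms
    (fun a b c => Ext.ext (by
      simp only [mul_m, mul_g]
      have := hu a.g b.g c.g
      rw [← sub_eq_zero, ← neg_eq_zero, ← this]
      abel) (mul_assoc _ _ _))
    (fun a => Ext.ext (by rw [mul_m, one_m, one_g, one_left hu a.g]; abel) (one_mul _))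
    (fun a => Ext.ext (by rw [mul_m, one_m, inv_m, inv_g]; abel) (inv_mul_cancel _))

/-- the projection -/
def pr (hu : Coc2 u) : Ext u hu →* S where
  toFun a := a.g
  map_one' := rfl
  map_mul' _ _ := rfl

theorem pr_central (hu : Coc2 u) (z : Ext u hu) (hz : pr hu z = 1) (e : Ext u hu) :
    Commute z e := by
  have hz' : z.g = 1 := hz
  refine Ext.ext ?_ ?_
  · rw [mul_m, mul_m, hz', one_left hu e.g, one_right hu e.g, add_comm z.m]
  · rw [mul_g, mul_g, hz', one_mul, mul_one]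

end ext

end CC

theorem perf_SG (h3 : ∀ i j : I, ∃ l, l ≠ i ∧ l ≠ j) : Perf (SG I R) := by
  intro M _ f hf
  let φ : SG I R →* Multiplicative M := MonoidHom.mk' (fun g => Multiplicative.ofAdd (f g))
    fun a b => by rw [hf, ofAdd_add]
  have : φ = 1 := by
    refine SG.hom_ext fun i j a hij => ?_
    obtain ⟨l, hi, hj⟩ := h3 i j
    rw [← mul_one a, ← X_sys.st hi.symm hj hij, map_commutatorElement,
      commutatorElement_eq_one_iff_mul_comm.2 (mul_comm _ _), MonoidHom.one_apply]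
  intro a
  have h := DFunLike.congr_fun this a
  exact h

theorem cc_SG (h5 : ∀ i j k l : I, ∃ m, m ≠ i ∧ m ≠ j ∧ m ≠ k ∧ m ≠ l) : CC (SG I R) := by
  intro M _ u hu
  obtain ⟨x', hx', hp⟩ := CC.exists_lift (CC.pr_central hu) (fun g => ⟨⟨0, g⟩, rfl⟩) h5
    (X_sys : StSys (X : I → I → R → SG I R))
  have h : (CC.pr hu).comp hx'.lift = MonoidHom.id _ :=
    SG.hom_ext fun i j a hij => by
      rw [MonoidHom.comp_apply, hx'.lift_X hij, hp i j a hij, MonoidHom.id_apply]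
  have h' : ∀ g, (hx'.lift g).g = g := fun g => DFunLike.congr_fun h g
  refine ⟨fun g => (hx'.lift g).m, fun a b => ?_⟩
  simp only [map_mul, CC.mul_m, h']

theorem five_fin (i j k l : Fin 5) : ∃ m, m ≠ i ∧ m ≠ j ∧ m ≠ k ∧ m ≠ l := by
  revert i j k l; decide

theorem five_nat (i j k l : ℕ) : ∃ m, m ≠ i ∧ m ≠ j ∧ m ≠ k ∧ m ≠ l :=
  ⟨i + j + k + l + 1, by omega, by omega, by omega, by omega⟩

theorem perf_fin : Perf (SG (Fin 5) R) :=
  perf_SG fun i j => (five_fin i j i j).imp fun _ h => ⟨h.1, h.2.1⟩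

theorem cc_fin : CC (SG (Fin 5) R) := cc_SG five_fin

theorem cc_nat : CC (SG ℕ R) := cc_SG five_nat

end Crest.Agent.R171
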