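import Crest.Agent.R171.Defs

/-! Row 171: calculus of slant products and of the alternating value on commuting triples. -/

set_option autoImplicit false
set_option linter.unusedSectionVars false

open scoped commutatorElement

namespace Crest.Agent.R171

variable {G M S : Type} [Group G] [AddCommGroup M] [Group S] {c : G → G → G → M} {T : G}

theorem sl_coc (hc : Coc3 c) {a b d : G} (ha : Commute T a) (hb : Commute T b)
    (hd : Commute T d) :
    sl c T b d - sl c T (a * b) d + sl c T a (b * d) - sl c T a b = 0 := by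
  have e1 := hc T a b d
  have e2 := hc a T b d
  have e3 := hc a b T d
  have e4 := hc a b d T
  rw [ha.eq] at e1
  rw [hb.eq] at e2
  rw [hd.eq] at e3
  simp only [sl]
  linear_combination (norm := abel) -e1 + e2 - e3 + e4

theorem sl_one_left (hc : Coc3 c) {g : G} (hg : Commute T g) : sl c T 1 g = sl c T 1 1 := by
  have := sl_coc hc (Commute.one_right T) (Commute.one_right T) hg
  simp only [one_mul] at this
  linear_combination (norm := abel) this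

theorem exists_triv (hc : Coc3 c) (hS : CC S) (ι : S →* G) (hT : ∀ a, Commute T (ι a)) :
    ∃ β, Triv (sl c T) ι β :=
  hS M (fun a b => sl c T (ι a) (ι b)) fun a b d => by
    simp only [map_mul]; exact sl_coc hc (hT a) (hT b) (hT d)

theorem Triv.unique {u : G → G → M} {ι : S →* G} {β β' : S → M} (hP : Perf S) (h : Triv u ι β)
    (h' : Triv u ι β') (a : S) : β a = β' a :=
  sub_eq_zero.1 (hP M (fun a => β a - β' a) (fun a b => by rw [h, h']; abel) a)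

theorem exists_isZ (hc : Coc3 c) (hS : CC S) {ι₁ ι₂ : S →* G} (h₁ : ∀ a, Commute T (ι₁ a))
    (h₂ : ∀ a, Commute T (ι₂ a)) (k : S) : ∃ m, IsZ c T ι₁ ι₂ k m := by
  obtain ⟨β₁, e₁⟩ := exists_triv hc hS ι₁ h₁
  obtain ⟨β₂, e₂⟩ := exists_triv hc hS ι₂ h₂
  exact ⟨_, β₁, β₂, e₁, e₂, rfl⟩

theorem IsZ.unique (hP : Perf S) {ι₁ ι₂ : S →* G} {k : S} {m m' : M} (h : IsZ c T ι₁ ι₂ k m)
    (h' : IsZ c T ι₁ ι₂ k m') : m = m' := by
  obtain ⟨β₁, β₂, e₁, e₂, rfl⟩ := h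
  obtain ⟨γ₁, γ₂, f₁, f₂, rfl⟩ := h'
  rw [e₁.unique hP f₁, e₂.unique hP f₂]

theorem IsZ.push {M' : Type} [AddCommGroup M'] (f : M →+ M') {ι₁ ι₂ : S →* G} {k : S} {m : M}
    (h : IsZ c T ι₁ ι₂ k m) : IsZ (fun a b d => f (c a b d)) T ι₁ ι₂ k (f m) := by
  obtain ⟨β₁, β₂, e₁, e₂, rfl⟩ := h
  refine ⟨fun a => f (β₁ a), fun a => f (β₂ a), fun a b => ?_, fun a b => ?_, map_sub _ _ _⟩
  · simp only [e₁ a b, sl, map_add, map_sub]
  · simp only [e₂ a b, sl, map_add, map_sub]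

theorem IsZ.pull {G' S' : Type} [Group G'] [Group S'] {c' : G' → G' → G' → M} (φ : G →* G')
    (ψ : S →* S') {ι₁ ι₂ : S →* G} {ι₁' ι₂' : S' →* G'} (h₁ : ∀ a, φ (ι₁ a) = ι₁' (ψ a))
    (h₂ : ∀ a, φ (ι₂ a) = ι₂' (ψ a)) {k : S} {m : M} (h : IsZ c' (φ T) ι₁' ι₂' (ψ k) m) :
    IsZ (fun a b d => c' (φ a) (φ b) (φ d)) T ι₁ ι₂ k m := by
  obtain ⟨β₁, β₂, e₁, e₂, rfl⟩ := h
  refine ⟨fun a => β₁ (ψ a), fun a => β₂ (ψ a), fun a b => ?_, fun a b => ?_, rfl⟩
  · simp only [map_mul, e₁ (ψ a) (ψ b), sl, h₁]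
  · simp only [map_mul, e₂ (ψ a) (ψ b), sl, h₂]

/-- coboundaries vanish on the class -/
theorem isZ_cob (l : G → G → M) {ι₁ ι₂ : S →* G} (h₁ : ∀ a, Commute T (ι₁ a))
    (h₂ : ∀ a, Commute T (ι₂ a)) {k : S} (hk : ι₁ k = ι₂ k) :
    IsZ (fun a b d => l b d - l (a * b) d + l a (b * d) - l a b) T ι₁ ι₂ k 0 := by
  have key : ∀ ι : S →* G, (∀ a, Commute T (ι a)) →
      Triv (sl (fun a b d => l b d - l (a * b) d + l a (b * d) - l a b) T) ι
        fun a => l T (ι a) - l (ι a) T := fun ι h a b => by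
    simp only [sl, map_mul, (h a).eq, (h b).eq]
    abel
  exact ⟨_, _, key ι₁ h₁, key ι₂ h₂, by rw [hk, sub_self]⟩

/-- the value of `c` on the torus of three commuting elements -/
def W (c : G → G → G → M) (T g h : G) : M := sl c T g h - sl c T h g

theorem W_cyc (T g h : G) : W c T g h = W c g h T := by
  simp only [W, sl]; abel

theorem W_swap (T g h : G) : W c T g h = -W c T h g := by
  simp only [W]; abel

theorem W_mul (hc : Coc3 c) {g g' h : G} (hg : Commute T g) (hg' : Commute T g')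
    (hh : Commute T h) (h1 : Commute g h) (h2 : Commute g' h) :
    W c T (g * g') h = W c T g h + W c T g' h := by
  have e1 := sl_coc hc hg hg' hh
  have e2 := sl_coc hc hg hh hg'
  have e3 := sl_coc hc hh hg hg'
  rw [h2.eq] at e1
  rw [h1.eq] at e2
  simp only [W]
  linear_combination (norm := abel) -e1 + e2 - e3

theorem W_mul' (hc : Coc3 c) {g h h' : G} (hg : Commute T g) (hh : Commute T h)
    (hh' : Commute T h') (h1 : Commute g h) (h2 : Commute g h') :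
    W c T g (h * h') = W c T g h + W c T g h' := by
  rw [W_swap, W_mul hc hh hh' hg h1.symm h2.symm, W_swap T g h, W_swap T g h']
  abel

theorem W_perf (hc : Coc3 c) (hP : Perf S) (ι : S →* G) {h : G} (hT : ∀ a, Commute T (ι a))
    (hh : Commute T h) (h1 : ∀ a, Commute (ι a) h) (a : S) : W c T (ι a) h = 0 :=
  hP M (fun a => W c T (ι a) h) (fun a b => by
    rw [map_mul, W_mul hc (hT a) (hT b) hh (h1 a) (h1 b)]) a

theorem W_cc (hc : Coc3 c) (hS : CC S) (ι : S →* G) (hT : ∀ a, Commute T (ι a)) {a b : S}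
    (hab : Commute a b) : W c T (ι a) (ι b) = 0 := by
  obtain ⟨β, e⟩ := exists_triv hc hS ι hT
  have e1 := e a b
  have e2 := e b a
  rw [hab.eq, e2] at e1
  simp only [W]
  linear_combination (norm := abel) -e1

/-- the class of a commutator is a torus -/
theorem IsZ.eq_W (hc : Coc3 c) (hP : Perf S) {ι₁ ι₂ : S →* G} (h₁ : ∀ a, Commute T (ι₁ a))
    (h₂ : ∀ a, Commute T (ι₂ a)) (h12 : ∀ a b, Commute (ι₁ a) (ι₂ b)) {Y h : S}
    (hk : ι₁ ⁅Y, h⁆ = ι₂ ⁅Y, h⁆) (hY : Commute ⁅Y, h⁆ Y) {m : M} (hm : IsZ c T ι₁ ι₂ ⁅Y, h⁆ m) :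
    m = W c T (ι₁ Y * ι₂ Y⁻¹) (ι₁ h * ι₂ h) := by
  obtain ⟨β₁, β₂, e₁, e₂, rfl⟩ := hm
  have hs : ∀ a b, sl c T (ι₁ a) (ι₂ b) = sl c T (ι₂ b) (ι₁ a) := fun a b =>
    sub_eq_zero.1 (W_perf hc hP ι₁ h₁ (h₂ b) (fun a => h12 a b) a)
  let β : S → S → M := fun a b => β₁ a + β₂ b + sl c T (ι₁ a) (ι₂ b)
  have hβ : ∀ a b a' b', β (a * a') (b * b') =
      β a b + β a' b' + sl c T (ι₁ a * ι₂ b) (ι₁ a' * ι₂ b') := fun a b a' b' => by
    have f1 := sl_coc hc (h₁ a) (h₁ a') ((h₂ b).mul_right (h₂ b'))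
    have f2 := sl_coc hc (h₁ a') (h₂ b) (h₂ b')
    have f3 := sl_coc hc (h₁ a) (h₂ b) ((h₁ a').mul_right (h₂ b'))
    have f4 := sl_coc hc (h₂ b) (h₁ a') (h₂ b')
    have f5 := hs a' b
    rw [← mul_assoc, (h12 a' b).eq, mul_assoc] at f1
    rw [(h12 a' b).eq] at f2
    simp only [β, e₁ a a', e₂ b b', map_mul]
    linear_combination (norm := abel) -f1 + f2 + f3 - f4 + f5
  set k := ⁅Y, h⁆ with hkd
  have a1 : Y * h = k * (h * Y) := by rw [hkd, commutatorElement_def]; group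
  have a2 : Y⁻¹ * h = k⁻¹ * (h * Y⁻¹) := by
    have : k⁻¹ = Y⁻¹ * k⁻¹ * Y := by rw [mul_assoc, hY.inv_left.eq, inv_mul_cancel_left]
    rw [this, hkd, commutatorElement_def]; group
  have b1 := hβ Y Y⁻¹ h h
  have b2 := hβ h h Y Y⁻¹
  have b3 := hβ k k⁻¹ (h * Y) (h * Y⁻¹)
  have b4 := e₂ k k⁻¹
  have b5 := e₂ 1 1
  rw [← a1, ← a2, hk, ← map_mul, mul_inv_cancel, map_one,
    sl_one_left hc ((h₁ _).mul_right (h₂ _))] at b3
  rw [mul_inv_cancel] at b4
  rw [mul_one, map_one] at b5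
  have b6 : β k k⁻¹ = β₁ k + β₂ k⁻¹ + sl c T (ι₂ k) (ι₂ k⁻¹) := by simp only [β, hk]
  simp only [W]
  linear_combination (norm := abel) b1 - b2 - b3 - b6 + b4 + b5

end Crest.Agent.R171
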