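import Crest.Prelude.Def_Steinberg

/-!
# Row 171 (S0259): definitions

Cocycles with trivial coefficients, Steinberg groups on an arbitrary index type, their matrix
representations, and the elements that carry the counterexample.
-/

set_option autoImplicit false

open scoped commutatorElement

namespace Crest.Agent.R171

/-! ## cocycles -/

section coc
variable {G M : Type} [Group G] [AddCommGroup M]

/-- 2-cocycles with trivial coefficients -/
def Coc2 (u : G → G → M) : Prop := ∀ a b c, u b c - u (a * b) c + u a (b * c) - u a b = 0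

/-- 3-cocycles with trivial coefficients -/
def Coc3 (c : G → G → G → M) : Prop :=
  ∀ a b d e, c b d e - c (a * b) d e + c a (b * d) e - c a b (d * e) + c a b d = 0

/-- slant product with `T`: a 2-cocycle on the centraliser of `T` -/
def sl (c : G → G → G → M) (T g h : G) : M := c T g h - c g T h + c g h T

/-- `β` trivialises the pullback of `u` along `ι` -/
def Triv {S : Type} [Group S] (u : G → G → M) (ι : S →* G) (β : S → M) : Prop :=
  ∀ a b, β (a * b) = β a + β b + u (ι a) (ι b)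

/-- the value of `c` on the class `T × k` -/
def IsZ {S : Type} [Group S] (c : G → G → G → M) (T : G) (ι₁ ι₂ : S →* G) (k : S) (m : M) : Prop :=
  ∃ β₁ β₂ : S → M, Triv (sl c T) ι₁ β₁ ∧ Triv (sl c T) ι₂ β₂ ∧ m = β₁ k - β₂ k

end coc

/-- every 2-cocycle is a coboundary -/
def CC (S : Type) [Group S] : Prop :=
  ∀ (M : Type) [AddCommGroup M] (u : S → S → M), Coc2 u →
    ∃ β : S → M, ∀ a b, β (a * b) = β a + β b + u a b

/-- perfect groups -/
def Perf (S : Type) [Group S] : Prop :=
  ∀ (M : Type) [AddCommGroup M] (f : S → M), (∀ a b, f (a * b) = f a + f b) → ∀ a, f a = 0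

/-! ## Steinberg groups -/

abbrev Gen (I R : Type) : Type := {p : I × I // p.1 ≠ p.2} × R

def fx {I R : Type} (i j : I) (h : i ≠ j) (a : R) : FreeGroup (Gen I R) :=
  FreeGroup.of (⟨(i, j), h⟩, a)

def rels (I R : Type) [Ring R] : Set (FreeGroup (Gen I R)) :=
  {w | ∃ (i j : I) (h : i ≠ j) (a b : R), w = fx i j h a * fx i j h b * (fx i j h (a + b))⁻¹} ∪
  {w | ∃ (i j k l : I) (hij : i ≠ j) (hkl : k ≠ l) (a b : R), j ≠ k ∧ i ≠ l ∧
      w = fx i j hij a * fx k l hkl b * (fx i j hij a)⁻¹ * (fx k l hkl b)⁻¹} ∪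
  {w | ∃ (i j l : I) (hij : i ≠ j) (hjl : j ≠ l) (hil : i ≠ l) (a b : R),
      w = fx i j hij a * fx j l hjl b * (fx i j hij a)⁻¹ * (fx j l hjl b)⁻¹ *
        (fx i l hil (a * b))⁻¹}

/-- the Steinberg group on the index type `I`; `SG ℕ R` is the group `St R` of the statement -/
abbrev SG (I R : Type) [Ring R] : Type := PresentedGroup (rels I R)

theorem SG_nat (R : Type) [Ring R] : SG ℕ R = Crest.AlgebraR.Steinberg.St R := rfl

/-- the Steinberg relations for a family `x` -/
structure StSys {I R G : Type} [Ring R] [Group G] (x : I → I → R → G) : Prop where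
  add : ∀ {i j : I}, i ≠ j → ∀ a b, x i j a * x i j b = x i j (a + b)
  com : ∀ {i j k l : I}, i ≠ j → k ≠ l → j ≠ k → i ≠ l → ∀ a b, Commute (x i j a) (x k l b)
  st : ∀ {i j l : I}, i ≠ j → j ≠ l → i ≠ l → ∀ a b, ⁅x i j a, x j l b⁆ = x i l (a * b)

section SG
variable {I J R R' G : Type} [DecidableEq I] [DecidableEq J] [CommRing R] [CommRing R'] [Group G]

/-- the generators (`1` on the diagonal) -/
def X (i j : I) (a : R) : SG I R :=
  if h : i ≠ j then PresentedGroup.of (⟨(i, j), h⟩, a) else 1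

theorem X_of {i j : I} (h : i ≠ j) (a : R) :
    (X i j a : SG I R) = PresentedGroup.mk _ (fx i j h a) := by
  rw [X, dif_pos h]; rfl

theorem X_self (i : I) (a : R) : (X i i a : SG I R) = 1 := by simp [X]

theorem X_sys : StSys (X : I → I → R → SG I R) where
  add {i j} h a b := by
    have := PresentedGroup.one_of_mem (rels := rels I R) (Or.inl (Or.inl ⟨i, j, h, a, b, rfl⟩))
    simp only [map_mul, map_inv] at this
    rw [X_of h, X_of h, X_of h]
    exact mul_inv_eq_one.1 this
  com {i j k l} hij hkl hjk hil a b := by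
    have := PresentedGroup.one_of_mem (rels := rels I R)
      (Or.inl (Or.inr ⟨i, j, k, l, hij, hkl, a, b, hjk, hil, rfl⟩))
    simp only [map_mul, map_inv] at this
    rw [X_of hij, X_of hkl]
    exact commutatorElement_eq_one_iff_commute.1 this
  st {i j l} hij hjl hil a b := by
    have := PresentedGroup.one_of_mem (rels := rels I R)
      (Or.inr ⟨i, j, l, hij, hjl, hil, a, b, rfl⟩)
    simp only [map_mul, map_inv] at this
    rw [X_of hij, X_of hjl, X_of hil]
    exact mul_inv_eq_one.1 this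

omit [DecidableEq I] in
theorem StSys.zero {x : I → I → R → G} (h : StSys x) {i j : I} (hij : i ≠ j) : x i j 0 = 1 := by
  have := h.add hij 0 0
  rw [add_zero] at this
  exact mul_eq_left.1 this

omit [DecidableEq I] in
theorem StSys.inv {x : I → I → R → G} (h : StSys x) {i j : I} (hij : i ≠ j) (a : R) :
    (x i j a)⁻¹ = x i j (-a) :=
  inv_eq_of_mul_eq_one_right (by rw [h.add hij, add_neg_cancel, h.zero hij])

theorem X_add (i j : I) (a b : R) : (X i j a * X i j b : SG I R) = X i j (a + b) := by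
  by_cases h : i = j
  · subst h; simp [X_self]
  · exact X_sys.add h a b

theorem X_zero (i j : I) : (X i j (0 : R) : SG I R) = 1 := by
  have := X_add i j (0 : R) 0
  rw [add_zero] at this
  exact mul_eq_left.1 this

theorem X_inv (i j : I) (a : R) : (X i j a : SG I R)⁻¹ = X i j (-a) :=
  inv_eq_of_mul_eq_one_right (by rw [X_add, add_neg_cancel, X_zero])

/-- the universal property -/
def StSys.lift {x : I → I → R → G} (h : StSys x) : SG I R →* G :=
  PresentedGroup.toGroup (f := fun p : Gen I R => x p.1.1.1 p.1.1.2 p.2) (by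
    rintro w ((⟨i, j, hij, a, b, rfl⟩ | ⟨i, j, k, l, hij, hkl, a, b, hjk, hil, rfl⟩) |
      ⟨i, j, l, hij, hjl, hil, a, b, rfl⟩)
    · simp [fx, h.add hij]
    · simpa [fx, commutatorElement_def] using
        commutatorElement_eq_one_iff_commute.2 (h.com hij hkl hjk hil a b)
    · simpa [fx, commutatorElement_def, mul_inv_eq_one] using h.st hij hjl hil a b)

theorem StSys.lift_X {x : I → I → R → G} (h : StSys x) {i j : I} (hij : i ≠ j) (a : R) :
    h.lift (X i j a) = x i j a := by
  rw [X, dif_pos hij]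
  exact PresentedGroup.toGroup.of _

theorem SG.hom_ext {f g : SG I R →* G} (h : ∀ i j a, i ≠ j → f (X i j a) = g (X i j a)) :
    f = g := by
  refine PresentedGroup.ext fun p => ?_
  have := h p.1.1.1 p.1.1.2 p.2 p.1.2
  rwa [X, dif_pos p.1.2] at this

theorem SG.mem_of_X {K : Subgroup (SG I R)} (h : ∀ i j a, i ≠ j → X i j a ∈ K) (g : SG I R) :
    g ∈ K := by
  refine PresentedGroup.generated_by _ K (fun p => ?_) g
  have := h p.1.1.1 p.1.1.2 p.2 p.1.2
  rwa [X, dif_pos p.1.2] at this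

omit [DecidableEq I] in
theorem mp_sys (e : I ↪ J) (φ : R →+* R') :
    StSys fun (i j : I) (a : R) => (X (e i) (e j) (φ a) : SG J R') where
  add _ a b := by rw [X_add, map_add]
  com hij hkl hjk hil a b :=
    X_sys.com (e.injective.ne hij) (e.injective.ne hkl) (e.injective.ne hjk) (e.injective.ne hil) _ _
  st hij hjl hil a b := by
    rw [map_mul]
    exact X_sys.st (e.injective.ne hij) (e.injective.ne hjl) (e.injective.ne hil) _ _

/-- change of indices and of rings -/
def mp (e : I ↪ J) (φ : R →+* R') : SG I R →* SG J R' := (mp_sys e φ).lift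

@[simp] theorem mp_X (e : I ↪ J) (φ : R →+* R') (i j : I) (a : R) :
    mp e φ (X i j a) = X (e i) (e j) (φ a) := by
  by_cases h : i = j
  · subst h; simp [X_self]
  · exact (mp_sys e φ).lift_X h a

/-- the subgroup generated by the `X i j a` with `i`, `j` in `P` -/
def Gp (R : Type) [CommRing R] (P : I → Prop) : Subgroup (SG I R) :=
  Subgroup.closure {g | ∃ i j a, P i ∧ P j ∧ g = X i j a}

theorem X_mem_Gp {P : I → Prop} {i j : I} (hi : P i) (hj : P j) (a : R) : X i j a ∈ Gp R P :=
  Subgroup.subset_closure ⟨i, j, a, hi, hj, rfl⟩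

/-- systems of matrix units in a ring -/
structure MU {Λ : Type} [Ring Λ] (e : I → I → R → Λ) : Prop where
  add : ∀ i j a b, e i j (a + b) = e i j a + e i j b
  mul_eq : ∀ i j l a b, e i j a * e j l b = e i l (a * b)
  mul_ne : ∀ {j k}, j ≠ k → ∀ i l a b, e i j a * e k l b = 0

section MU
variable {Λ : Type} [Ring Λ] {e : I → I → R → Λ}

omit [DecidableEq I] in
theorem MU.zero (h : MU e) (i j : I) : e i j 0 = 0 := by
  have := h.add i j 0 0
  rw [add_zero] at this
  exact left_eq_add.1 this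

omit [DecidableEq I] in
theorem MU.neg (h : MU e) (i j : I) (a : R) : e i j (-a) = -e i j a :=
  eq_neg_of_add_eq_zero_left (by rw [← h.add, neg_add_cancel, h.zero])

/-- the elementary matrices -/
def MU.el (h : MU e) (i j : I) (a : R) : Λˣ :=
  if hij : i ≠ j then
    ⟨1 + e i j a, 1 - e i j a, by simp [add_mul, mul_sub, h.mul_ne hij.symm],
      by simp [mul_add, sub_mul, h.mul_ne hij.symm]⟩
  else 1

theorem MU.el_val (h : MU e) {i j : I} (hij : i ≠ j) (a : R) :
    (h.el i j a : Λ) = 1 + e i j a := by rw [MU.el, dif_pos hij]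

theorem MU.el_inv (h : MU e) {i j : I} (hij : i ≠ j) (a : R) :
    (((h.el i j a)⁻¹ : Λˣ) : Λ) = 1 - e i j a := by rw [MU.el, dif_pos hij]; rfl

theorem MU.sys (h : MU e) : StSys h.el where
  add {i j} hij a b := by
    ext
    simp only [Units.val_mul, h.el_val hij, h.add, add_mul, mul_add, h.mul_ne hij.symm, one_mul,
      mul_one]
    abel
  com {i j k l} hij hkl hjk hil a b := by
    refine Units.ext ?_
    simp only [Units.val_mul, h.el_val hij, h.el_val hkl, add_mul, mul_add, h.mul_ne hjk,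
      h.mul_ne hil.symm, one_mul, mul_one]
    abel
  st {i j l} hij hjl hil a b := by
    rw [commutatorElement_def, mul_inv_eq_iff_eq_mul, mul_inv_eq_iff_eq_mul]
    ext
    simp only [Units.val_mul, h.el_val hij, h.el_val hjl, h.el_val hil, add_mul, mul_add,
      h.mul_ne hil.symm, h.mul_ne hjl.symm, h.mul_eq, one_mul, mul_one, add_zero]
    abel

/-- the representation of the Steinberg group attached to a system of matrix units -/
def MU.rep (h : MU e) : SG I R →* Λˣ := h.sys.lift

theorem MU.rep_X (h : MU e) {i j : I} (hij : i ≠ j) (a : R) :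
    (h.rep (X i j a) : Λ) = 1 + e i j a := by
  rw [MU.rep, h.sys.lift_X hij, h.el_val hij]

end MU

/-- the matrix of `g` is monomial: column `i` is `d i` times the basis vector `σ i` -/
def Mono (g : SG I R) (σ : Equiv.Perm I) (d : I → Rˣ) : Prop :=
  ∀ (Λ : Type) [Ring Λ] (e : I → I → R → Λ) (h : MU e) (i j : I) (a : R),
    (h.rep g : Λ) * e i j a = e (σ i) j (d i * a)

/-- a word with matrix `diag (1 + a b, s')` at `p`, `q` when `(1 + a b) s' = 1` -/
def hw (p q : I) (a b s' : R) : SG I R :=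
  X q p (-(b * s')) * X p q a * X q p b * X p q (-(a * s'))

/-- a lift of `diag (u, u⁻¹)` at `p`, `q` -/
def HH (p q : I) (u : Rˣ) : SG I R := hw p q ((u : R) - 1) 1 ((u⁻¹ : Rˣ) : R)

/-- the Weyl element -/
def ww (p q : I) : SG I R := X p q 1 * X q p (-1) * X p q 1

/-- the diagonal `diag (u, u⁻¹)` at `p`, `q` -/
def dg (p q : I) (u : Rˣ) (i : I) : Rˣ := if i = p then u else if i = q then u⁻¹ else 1

@[simp] theorem mp_hw (e : I ↪ J) (φ : R →+* R') (p q : I) (a b s' : R) :
    mp e φ (hw p q a b s') = hw (e p) (e q) (φ a) (φ b) (φ s') := by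
  simp [hw]

@[simp] theorem mp_HH (e : I ↪ J) (φ : R →+* R') (p q : I) (u : Rˣ) :
    mp e φ (HH p q u) = HH (e p) (e q) (Units.map (φ : R →* R') u) := by
  simp [HH]

theorem hw_mem_Gp {P : I → Prop} {p q : I} (hp : P p) (hq : P q) (a b s' : R) :
    hw p q a b s' ∈ Gp R P :=
  mul_mem (mul_mem (mul_mem (X_mem_Gp hq hp _) (X_mem_Gp hp hq _)) (X_mem_Gp hq hp _))
    (X_mem_Gp hp hq _)

theorem HH_mem_Gp {P : I → Prop} {p q : I} (hp : P p) (hq : P q) (u : Rˣ) : HH p q u ∈ Gp R P :=
  hw_mem_Gp hp hq _ _ _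

end SG

/-! ## the data of the counterexample -/

/-- `1 - τ = τ² s` and `s = 1 + a y²` -/
structure Dat (R : Type) [CommRing R] where
  τ : Rˣ
  s : Rˣ
  y : R
  a : R
  hτ : 1 - (τ : R) = τ ^ 2 * s
  hs : (s : R) = 1 + a * y ^ 2

/-- the first block of indices -/
def e₁ : Fin 5 ↪ ℕ := ⟨fun i => i.val, Fin.val_injective⟩

/-- the second block of indices -/
def e₂ : Fin 5 ↪ ℕ := ⟨fun i => i.val + 5, fun _ _ h => Fin.ext (Nat.add_right_cancel h)⟩

section Dat
variable {R R' : Type} [CommRing R] [CommRing R']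

def ι₁ (R : Type) [CommRing R] : SG (Fin 5) R →* SG ℕ R := mp e₁ (RingHom.id R)

def ι₂ (R : Type) [CommRing R] : SG (Fin 5) R →* SG ℕ R := mp e₂ (RingHom.id R)

/-- the element `⟨y², a⟩` of `K₂` -/
def Dat.k (D : Dat R) : SG (Fin 5) R :=
  hw 0 1 (D.a * D.y ^ 2) 1 ((D.s⁻¹ : Rˣ) : R) * (hw 0 1 D.a (D.y ^ 2) ((D.s⁻¹ : Rˣ) : R))⁻¹

/-- a lift of `diag (τ, τ, τ, τ, τ, τ⁻¹, τ⁻¹, τ⁻¹, τ⁻¹, τ⁻¹)` -/
def Dat.T (D : Dat R) : SG ℕ R :=
  HH 0 6 D.τ * (HH 5 1 D.τ)⁻¹ * (HH 2 7 D.τ * HH 3 8 D.τ * HH 4 9 D.τ)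

/-- the diagonal of `T` -/
def Dat.dT (D : Dat R) (i : ℕ) : Rˣ := if i < 5 then D.τ else if i < 10 then D.τ⁻¹ else 1

def Dat.map (D : Dat R) (φ : R →+* R') : Dat R' where
  τ := Units.map (φ : R →* R') D.τ
  s := Units.map (φ : R →* R') D.s
  y := φ D.y
  a := φ D.a
  hτ := by simpa using congrArg φ D.hτ
  hs := by simpa using congrArg φ D.hs

/-- three derivations (as maps to dual numbers over `B`) that detect the class -/
structure Det (D : Dat R) (B : Type) [CommRing B] where
  ρ : R →+* B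
  dx : R →+* DualNumber B
  dt : R →+* DualNumber B
  dy : R →+* DualNumber B
  fx : ∀ r, (dx r).fst = ρ r
  ft : ∀ r, (dt r).fst = ρ r
  fy : ∀ r, (dy r).fst = ρ r
  tτ : (dt D.τ).snd = 0
  yτ : (dy D.τ).snd = 0
  ts : (dt D.s).snd = 0
  ty : (dt D.y).snd = 0
  ne : 2 * (dx D.τ).snd * ((dy (D.y ^ 2)).snd * (dt D.a).snd) ≠ 0

end Dat

end Crest.Agent.R171
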