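import Crest.Agent.R171.Coc

/-! Row 171: from cocycles to non-injectivity on third homology. -/

set_option autoImplicit false

open CategoryTheory groupHomology

namespace Crest.Agent.R171

namespace Glue

variable {G : Type} [Group G]

/-- the complex of inhomogeneous chains with trivial integer coefficients -/
noncomputable abbrev K (G : Type) [Group G] : ChainComplex (ModuleCat ℤ) ℕ :=
  inhomogeneousChains (Rep.trivial ℤ G ℤ)

theorem d3 (a b d : G) : inhomogeneousChains.d (Rep.trivial ℤ G ℤ) 2 (Finsupp.single ![a, b, d] (1 : ℤ)) =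
    Finsupp.single ![b, d] (1 : ℤ) - Finsupp.single ![a * b, d] 1 + Finsupp.single ![a, b * d] 1 -
      Finsupp.single ![a, b] 1 := by
  rw [inhomogeneousChains.d_single]
  have e0 : (fun i : Fin 2 => (![a, b, d] : Fin 3 → G) i.succ) = ![b, d] := by
    ext i; fin_cases i <;> rfl
  have e1 : Fin.contractNth 0 (· * ·) (![a, b, d] : Fin 3 → G) = ![a * b, d] := by
    ext i; fin_cases i <;> rfl
  have e2 : Fin.contractNth 1 (· * ·) (![a, b, d] : Fin 3 → G) = ![a, b * d] := by
    ext i; fin_cases i <;> rfl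
  have e3 : Fin.contractNth 2 (· * ·) (![a, b, d] : Fin 3 → G) = ![a, b] := by
    ext i; fin_cases i <;> rfl
  rw [Fin.sum_univ_three, e0, e1, e2, e3]
  simp
  abel

theorem d4 (a b d e : G) :
    inhomogeneousChains.d (Rep.trivial ℤ G ℤ) 3 (Finsupp.single ![a, b, d, e] (1 : ℤ)) =
    Finsupp.single ![b, d, e] (1 : ℤ) - Finsupp.single ![a * b, d, e] 1 +
      Finsupp.single ![a, b * d, e] 1 - Finsupp.single ![a, b, d * e] 1 +
        Finsupp.single ![a, b, d] 1 := by
  rw [inhomogeneousChains.d_single]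
  have e0 : (fun i : Fin 3 => (![a, b, d, e] : Fin 4 → G) i.succ) = ![b, d, e] := by
    ext i; fin_cases i <;> rfl
  have e1 : Fin.contractNth 0 (· * ·) (![a, b, d, e] : Fin 4 → G) = ![a * b, d, e] := by
    ext i; fin_cases i <;> rfl
  have e2 : Fin.contractNth 1 (· * ·) (![a, b, d, e] : Fin 4 → G) = ![a, b * d, e] := by
    ext i; fin_cases i <;> rfl
  have e3 : Fin.contractNth 2 (· * ·) (![a, b, d, e] : Fin 4 → G) = ![a, b, d * e] := by
    ext i; fin_cases i <;> rfl
  have e4 : Fin.contractNth 3 (· * ·) (![a, b, d, e] : Fin 4 → G) = ![a, b, d] := by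
    ext i; fin_cases i <;> rfl
  rw [Fin.sum_univ_four, e0, e1, e2, e3, e4]
  simp
  abel

/-- the universal cocycle -/
noncomputable def U (G : Type) [Group G] (a b d : G) : (K G).opcycles 3 :=
  (K G).pOpcycles 3 (Finsupp.single ![a, b, d] (1 : ℤ))

theorem p_d (x : (Fin 4 → G) →₀ ℤ) :
    (K G).pOpcycles 3 (inhomogeneousChains.d (Rep.trivial ℤ G ℤ) 3 x) = 0 := by
  have := (K G).d_pOpcycles 4 3
  rw [inhomogeneousChains.d_def] at this
  exact congrArg (fun f => f.hom x) this

theorem U_coc : Coc3 (U G) := fun a b d e => by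
  have := p_d (Finsupp.single ![a, b, d, e] (1 : ℤ))
  rw [d4] at this
  simpa only [U, map_add, map_sub] using this

theorem from_U (a b d : G) : (K G).fromOpcycles 3 2 (U G a b d) =
    (Finsupp.single ![b, d] (1 : ℤ) - Finsupp.single ![a * b, d] 1 + Finsupp.single ![a, b * d] 1 -
      Finsupp.single ![a, b] 1 : (Fin 2 → G) →₀ ℤ) := by
  have := (K G).p_fromOpcycles 3 2
  rw [inhomogeneousChains.d_def] at this
  exact (congrArg (fun f => f.hom (Finsupp.single ![a, b, d] (1 : ℤ))) this).trans (d3 a b d)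

theorem exists_desc {M : Type} [AddCommGroup M] {c : G → G → G → M} (hc : Coc3 c) :
    ∃ f : (K G).opcycles 3 →+ M, ∀ a b d, f (U G a b d) = c a b d := by
  let k : (K G).X 3 ⟶ ModuleCat.of ℤ M :=
    ModuleCat.ofHom (Finsupp.linearCombination ℤ fun g : Fin 3 → G => c (g 0) (g 1) (g 2))
  have hk : (K G).d 4 3 ≫ k = 0 := by
    rw [inhomogeneousChains.d_def]
    refine ModuleCat.hom_ext (Finsupp.lhom_ext' fun g => LinearMap.ext_ring ?_)
    have e : g = ![g 0, g 1, g 2, g 3] := by ext i; fin_cases i <;> rfl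
    show k.hom (inhomogeneousChains.d (Rep.trivial ℤ G ℤ) 3 (Finsupp.single g (1 : ℤ))) = 0
    rw [e, d4]
    simpa [k] using hc (g 0) (g 1) (g 2) (g 3)
  refine ⟨((K G).descOpcycles k 4 (by simp) hk).hom.toAddMonoidHom, fun a b d => ?_⟩
  have := (K G).p_descOpcycles k 4 (by simp) hk
  refine (congrArg (fun f => f.hom (Finsupp.single ![a, b, d] (1 : ℤ))) this).trans ?_
  simp [k]

end Glue

open Glue

theorem glue {G G' S : Type} [Group G] [Group G'] [Group S] (φ : G →* G')
    (ψ : Rep.trivial ℤ G ℤ ⟶ Rep.res φ (Rep.trivial ℤ G' ℤ)) (hψ : ψ.hom (1 : ℤ) = (1 : ℤ))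
    {T : G} {ι₁ ι₂ : S →* G} {k : S} (hS : CC S) (hP : Perf S) (h₁ : ∀ a, Commute T (ι₁ a))
    (h₂ : ∀ a, Commute T (ι₂ a)) (hk : ι₁ k = ι₂ k) {M : Type} [AddCommGroup M]
    {c : G → G → G → M} {m : M} (hc : Coc3 c) (hm : IsZ c T ι₁ ι₂ k m) (hm0 : m ≠ 0)
    (hz : IsZ (fun a b d => U G' (φ a) (φ b) (φ d)) T ι₁ ι₂ k 0) :
    ¬ Function.Injective (groupHomology.map φ ψ 3).hom := by
  intro hinj
  obtain ⟨z, hZ⟩ := exists_isZ (U_coc (G := G)) hS h₁ h₂ k
  have z1 : (K G).fromOpcycles 3 2 z = 0 := by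
    have a1 := hZ.push ((K G).fromOpcycles 3 2).hom.toAddMonoidHom
    have a2 := isZ_cob (fun a b : G => (Finsupp.single ![a, b] (1 : ℤ) : (Fin 2 → G) →₀ ℤ)) h₁ h₂ hk
    refine IsZ.unique hP a1 ?_
    convert a2 using 4
    exact from_U _ _ _
  have z2 : z ≠ 0 := by
    obtain ⟨f, hf⟩ := exists_desc hc
    have a1 := hZ.push f
    simp only [hf] at a1
    rintro rfl
    exact hm0 ((hm.unique hP a1).trans (map_zero f))
  have z3 : HomologicalComplex.opcyclesMap (chainsMap φ ψ) 3 z = 0 := by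
    have a1 := hZ.push (HomologicalComplex.opcyclesMap (chainsMap φ ψ) 3).hom.toAddMonoidHom
    refine IsZ.unique hP a1 ?_
    convert hz using 4
    rename_i a b d
    have := HomologicalComplex.p_opcyclesMap (chainsMap φ ψ) 3
    refine (congrArg (fun f => f.hom (Finsupp.single ![a, b, d] (1 : ℤ))) this).trans ?_
    show (K G').pOpcycles 3 ((chainsMap φ ψ).f 3 (Finsupp.single ![a, b, d] (1 : ℤ))) = _
    rw [chainsMap_f_single, hψ, U]
    congr 2
    ext i; fin_cases i <;> rfl
  obtain ⟨x, rfl⟩ := (ModuleCat.epi_iff_surjective ((K G).pOpcycles 3)).1 inferInstance z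
  have hx : (K G).d 3 2 x = 0 :=
    (congrArg (fun f => f.hom x) ((K G).p_fromOpcycles 3 2)).symm.trans z1
  let η := groupHomology.π (Rep.trivial ℤ G ℤ) 3 (cyclesMk 3 2 (by simp) x hx)
  have hη : (K G).homologyι 3 η = (K G).pOpcycles 3 x := by
    have := congrArg (fun f => f.hom (cyclesMk 3 2 (by simp) x hx)) ((K G).homology_π_ι 3)
    refine this.trans ?_
    show (K G).pOpcycles 3 (iCycles _ 3 (cyclesMk 3 2 (by simp) x hx)) = _
    rw [iCycles_mk]
  have h0 : (groupHomology.map φ ψ 3).hom η = 0 := by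
    refine (ModuleCat.mono_iff_injective ((K G').homologyι 3)).1 inferInstance ?_
    refine Eq.trans ?_ (((K G').homologyι 3).hom.map_zero).symm
    have := congrArg (fun f => f.hom η) (HomologicalComplex.homologyι_naturality (chainsMap φ ψ) 3)
    refine this.trans ?_
    show HomologicalComplex.opcyclesMap (chainsMap φ ψ) 3 ((K G).homologyι 3 η) = 0
    rw [hη, z3]
  have h1 : η = 0 := hinj (h0.trans (map_zero _).symm)
  rw [h1] at hη
  exact z2 (hη.symm.trans ((K G).homologyι 3).hom.map_zero)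

end Crest.Agent.R171
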