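import Crest.Agent.R171.CC
import Crest.Agent.R171.Act

/-! Row 171: the cocycle `tr (δ₁ g₁ δ₂ g₂ δ₃ g₃ (g₁ g₂ g₃)⁻¹)` detects the class. -/

set_option autoImplicit false

namespace Crest.Agent.R171

namespace NZ

open scoped commutatorElement

/-- the Brandt monoid of matrix units -/
inductive Br : Type
  | one : Br
  | zero : Br
  | u (i j : ℕ) : Br

/-- its multiplication -/
def Br.mul : Br → Br → Br
  | .one, s => s
  | .zero, _ => .zero
  | .u i j, .one => .u i j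
  | .u _ _, .zero => .zero
  | .u i j, .u k l => if j = k then .u i l else .zero

instance : Monoid Br where
  mul := Br.mul
  one := .one
  one_mul _ := rfl
  mul_one s := by cases s <;> rfl
  mul_assoc a b c := by
    show (a.mul b).mul c = a.mul (b.mul c)
    cases a <;> cases b <;> cases c <;> simp only [Br.mul] <;> split_ifs <;> simp_all

/-- the trace of a basis element -/
def Br.tr (B : Type) [CommRing B] : Br → B
  | .u i j => if i = j then 1 else 0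
  | _ => 0

theorem Br.tr_comm (B : Type) [CommRing B] (s t : Br) : Br.tr B (s * t) = Br.tr B (t * s) := by
  show Br.tr B (s.mul t) = Br.tr B (t.mul s)
  cases s <;> cases t <;> simp only [Br.mul, Br.tr]
  rename_i i j k l
  by_cases h1 : j = k <;> by_cases h2 : l = i
  · subst h1 h2; simp
  · subst h1; simp [h2, Ne.symm h2]
  · subst h2; simp [h1, Ne.symm h1]
  · simp [h1, h2]

/-- an algebra with matrix units and a trace -/
structure Mdl (B Λ : Type) [CommRing B] [Ring Λ] [Algebra B Λ] where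
  e : ℕ → ℕ → Λ
  τ : Λ →ₗ[B] B
  mul_eq : ∀ i j l, e i j * e j l = e i l
  mul_ne : ∀ {j k}, j ≠ k → ∀ i l, e i j * e k l = 0
  comm : ∀ x y, τ (x * y) = τ (y * x)
  one : ∀ i, τ (e i i) = 1

theorem exists_mdl (B : Type) [CommRing B] : Nonempty (Mdl B (MonoidAlgebra B Br)) := by
  have hτ : ∀ (s : Br) (b : B), ((Finsupp.linearCombination B (Br.tr B)) ∘ₗ
      (MonoidAlgebra.coeffLinearEquiv B).toLinearMap) (MonoidAlgebra.single s b) =
      b * Br.tr B s := by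
    intro s b
    simp [MonoidAlgebra.coeffLinearEquiv]
  refine ⟨⟨fun i j => MonoidAlgebra.single (.u i j) 1 - MonoidAlgebra.single .zero 1,
    (Finsupp.linearCombination B (Br.tr B)) ∘ₗ (MonoidAlgebra.coeffLinearEquiv B).toLinearMap,
    ?_, ?_, ?_, ?_⟩⟩
  · intro i j l
    simp only [mul_sub, sub_mul, MonoidAlgebra.single_mul_single, mul_one]
    have h1 : Br.u i j * Br.u j l = Br.u i l := if_pos rfl
    have h2 : Br.u i j * Br.zero = Br.zero := rfl
    have h3 : Br.zero * Br.u j l = Br.zero := rfl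
    have h4 : Br.zero * Br.zero = Br.zero := rfl
    rw [h1, h2, h3, h4]; abel
  · intro j k h i l
    simp only [mul_sub, sub_mul, MonoidAlgebra.single_mul_single, mul_one]
    have h1 : Br.u i j * Br.u k l = Br.zero := if_neg h
    have h2 : Br.u i j * Br.zero = Br.zero := rfl
    have h3 : Br.zero * Br.u k l = Br.zero := rfl
    have h4 : Br.zero * Br.zero = Br.zero := rfl
    rw [h1, h2, h3, h4]; abel
  · intro x y
    induction x using MonoidAlgebra.induction_linear with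
    | zero => simp
    | add a b ha hb => rw [add_mul, mul_add, map_add, map_add, ha, hb]
    | single s a =>
      induction y using MonoidAlgebra.induction_linear with
      | zero => simp
      | add a b ha hb => rw [add_mul, mul_add, map_add, map_add, ha, hb]
      | single t b =>
        rw [MonoidAlgebra.single_mul_single, MonoidAlgebra.single_mul_single, hτ, hτ,
          Br.tr_comm, mul_comm a b]
  · intro i
    rw [map_sub, hτ, hτ]
    simp [Br.tr]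

theorem SG.ind {I R : Type} [DecidableEq I] [CommRing R] {P : SG I R → Prop} (h1 : P 1)
    (hX : ∀ i j a, i ≠ j → P (X i j a)) (hm : ∀ g h, P g → P h → P (g * h)) (g : SG I R) :
    P g := by
  let K : Subgroup (SG I R) :=
    { carrier := {g | P g ∧ P g⁻¹}
      mul_mem' := fun {a b} ha hb => ⟨hm _ _ ha.1 hb.1, by rw [mul_inv_rev]; exact hm _ _ hb.2 ha.2⟩
      one_mem' := ⟨h1, by rw [inv_one]; exact h1⟩
      inv_mem' := fun {a} ha => ⟨ha.2, by rw [inv_inv]; exact ha.1⟩ }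
  exact (SG.mem_of_X (K := K) (fun i j a h => ⟨hX i j a h, by rw [X_inv]; exact hX i j _ h⟩) g).1

variable {R B Λ : Type} [CommRing R] [CommRing B] [Ring Λ] [Algebra B Λ] (m : Mdl B Λ)

namespace Mdl

theorem off {i j : ℕ} (h : i ≠ j) : m.τ (m.e i j) = 0 := by
  rw [← m.mul_eq i i j, m.comm, m.mul_ne h.symm, map_zero]

/-- the finitary matrices -/
def F : Submodule B Λ := Submodule.span B (Set.range fun p : ℕ × ℕ => m.e p.1 p.2)

theorem e_mem (i j : ℕ) : m.e i j ∈ m.F := Submodule.subset_span ⟨(i, j), rfl⟩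

theorem F_mul {x y : Λ} (hx : x ∈ m.F) (hy : y ∈ m.F) : x * y ∈ m.F := by
  induction hx using Submodule.span_induction with
  | zero => simp
  | add a b _ _ ha hb => rw [add_mul]; exact add_mem ha hb
  | smul c a _ ha => rw [smul_mul_assoc]; exact Submodule.smul_mem _ _ ha
  | mem a ha =>
    obtain ⟨⟨i, j⟩, rfl⟩ := ha
    induction hy using Submodule.span_induction with
    | zero => simp
    | add a b _ _ ha hb => rw [mul_add]; exact add_mem ha hb
    | smul c a _ ha => rw [mul_smul_comm]; exact Submodule.smul_mem _ _ ha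
    | mem a ha =>
      obtain ⟨⟨k, l⟩, rfl⟩ := ha
      by_cases h : j = k
      · subst h; simp only [m.mul_eq]; exact m.e_mem _ _
      · simp only [m.mul_ne h]; exact zero_mem _

theorem F_unit {x : Λ} (hx : x ∈ m.F) :
    ∃ N, ∀ n, N ≤ n → x * ∑ i ∈ Finset.range n, m.e i i = x := by
  induction hx using Submodule.span_induction with
  | zero => exact ⟨0, fun _ _ => zero_mul _⟩
  | add a b _ _ ha hb =>
    obtain ⟨N, ha⟩ := ha
    obtain ⟨N', hb⟩ := hb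
    exact ⟨N + N', fun n hn => by rw [add_mul, ha n (by omega), hb n (by omega)]⟩
  | smul c a _ ha =>
    obtain ⟨N, ha⟩ := ha
    exact ⟨N, fun n hn => by rw [smul_mul_assoc, ha n hn]⟩
  | mem a ha =>
    obtain ⟨⟨i, j⟩, rfl⟩ := ha
    refine ⟨j + 1, fun n hn => ?_⟩
    rw [Finset.mul_sum, Finset.sum_eq_single j]
    · exact m.mul_eq _ _ _
    · intro k _ hk; exact m.mul_ne (Ne.symm hk) _ _
    · intro h; exact absurd (Finset.mem_range.2 (by omega)) h

theorem F_eq_zero {x : Λ} (hx : x ∈ m.F) (h : ∀ i, x * m.e i i = 0) : x = 0 := by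
  obtain ⟨N, hN⟩ := m.F_unit hx
  rw [← hN N le_rfl, Finset.mul_sum]
  exact Finset.sum_eq_zero fun i _ => h i

theorem mu₀ (ρ : R →+* B) : MU fun (i j : ℕ) (r : R) => ρ r • m.e i j where
  add i j a b := by rw [map_add, add_smul]
  mul_eq i j l a b := by rw [smul_mul_smul_comm, m.mul_eq, map_mul]
  mul_ne h i l a b := by rw [smul_mul_smul_comm, m.mul_ne h, smul_zero]

/-- the dual matrix units -/
def de (d : R →+* DualNumber B) (i j : ℕ) (r : R) : DualNumber Λ :=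
  ((d r).fst • m.e i j, (d r).snd • m.e i j)

@[simp] theorem de_fst (d : R →+* DualNumber B) (i j : ℕ) (r : R) :
    (m.de d i j r).fst = (d r).fst • m.e i j := rfl

@[simp] theorem de_snd (d : R →+* DualNumber B) (i j : ℕ) (r : R) :
    (m.de d i j r).snd = (d r).snd • m.e i j := rfl

theorem mu (d : R →+* DualNumber B) : MU (m.de d) where
  add i j a b := by ext <;> simp [add_smul]
  mul_eq i j l a b := by
    ext
    · simp only [TrivSqZeroExt.fst_mul, de_fst, smul_mul_smul_comm, m.mul_eq, map_mul]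
    · simp only [DualNumber.snd_mul, de_fst, de_snd, smul_mul_smul_comm, m.mul_eq, map_mul,
        add_smul]
  mul_ne h i l a b := by
    ext
    · simp [m.mul_ne h]
    · simp only [DualNumber.snd_mul, de_fst, de_snd, smul_mul_smul_comm, m.mul_ne h, smul_zero,
        add_zero, TrivSqZeroExt.snd_zero]

/-- the matrix of `g` -/
def π (ρ : R →+* B) (g : SG ℕ R) : Λ := ((m.mu₀ ρ).rep g : Λ)

/-- its derivative -/
def δ (d : R →+* DualNumber B) (g : SG ℕ R) : Λ := ((m.mu d).rep g : DualNumber Λ).snd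

variable {ρ : R →+* B} {d : R →+* DualNumber B}

theorem π_one : m.π ρ 1 = 1 := by simp [π]

theorem π_mul (g h : SG ℕ R) : m.π ρ (g * h) = m.π ρ g * m.π ρ h := by simp [π]

theorem π_X {i j : ℕ} (h : i ≠ j) (a : R) : m.π ρ (X i j a) = 1 + ρ a • m.e i j :=
  (m.mu₀ ρ).rep_X h a

theorem π_mul_inv (g : SG ℕ R) : m.π ρ g * m.π ρ g⁻¹ = 1 := by
  rw [← π_mul, mul_inv_cancel, π_one]

theorem π_inv_mul (g : SG ℕ R) : m.π ρ g⁻¹ * m.π ρ g = 1 := by
  rw [← π_mul, inv_mul_cancel, π_one]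

theorem fst_rep (hd : ∀ r, (d r).fst = ρ r) (g : SG ℕ R) :
    ((m.mu d).rep g : DualNumber Λ).fst = m.π ρ g := by
  induction g using SG.ind with
  | h1 => simp [π_one]
  | hX i j a h => rw [(m.mu d).rep_X h, π_X _ h]; simp [hd]
  | hm g h hg hh => rw [map_mul, Units.val_mul, TrivSqZeroExt.fst_mul, hg, hh, π_mul]

theorem δ_one : m.δ d 1 = 0 := by simp [δ]

theorem δ_mul (hd : ∀ r, (d r).fst = ρ r) (g h : SG ℕ R) :
    m.δ d (g * h) = m.π ρ g * m.δ d h + m.δ d g * m.π ρ h := by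
  rw [δ, map_mul, Units.val_mul, DualNumber.snd_mul, m.fst_rep hd, m.fst_rep hd]; rfl

theorem δ_X {i j : ℕ} (h : i ≠ j) (a : R) : m.δ d (X i j a) = (d a).snd • m.e i j := by
  rw [δ, (m.mu d).rep_X h]; simp

theorem π_mem (g : SG ℕ R) : m.π ρ g - 1 ∈ m.F := by
  induction g using SG.ind with
  | h1 => simp [π_one]
  | hX i j a h => rw [π_X _ h, add_sub_cancel_left]; exact Submodule.smul_mem _ _ (m.e_mem _ _)
  | hm g h hg hh =>
    have : m.π ρ (g * h) - 1 =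
        (m.π ρ g - 1) * (m.π ρ h - 1) + (m.π ρ g - 1) + (m.π ρ h - 1) := by
      rw [π_mul]; noncomm_ring
    rw [this]
    exact add_mem (add_mem (m.F_mul hg hh) hg) hh

theorem δ_mem (hd : ∀ r, (d r).fst = ρ r) (g : SG ℕ R) : m.δ d g ∈ m.F := by
  induction g using SG.ind with
  | h1 => simp [δ_one]
  | hX i j a h => rw [δ_X _ h]; exact Submodule.smul_mem _ _ (m.e_mem _ _)
  | hm g h hg hh =>
    have : m.δ d (g * h) =
        (m.π ρ g - 1) * m.δ d h + m.δ d h + (m.δ d g * (m.π ρ h - 1) + m.δ d g) := by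
      rw [m.δ_mul hd]; noncomm_ring
    rw [this]
    exact add_mem (add_mem (m.F_mul (m.π_mem g) hh) hh) (add_mem (m.F_mul hg (m.π_mem h)) hg)

theorem mono_π {g : SG ℕ R} {u : ℕ → Rˣ} (h : Mono g 1 u) (i j : ℕ) :
    m.π ρ g * m.e i j = ρ (u i) • m.e i j := by
  have := h Λ _ (m.mu₀ ρ) i j 1
  simpa [π] using this

theorem mono_δ {g : SG ℕ R} {u : ℕ → Rˣ} (h : Mono g 1 u) (i j : ℕ) :
    m.δ d g * m.e i j = (d (u i)).snd • m.e i j := by
  have := congrArg TrivSqZeroExt.snd (h _ _ (m.mu d) i j 1)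
  rw [DualNumber.snd_mul] at this
  simpa [δ] using this

theorem δ_eq_zero (hd : ∀ r, (d r).fst = ρ r) {g : SG ℕ R} {u : ℕ → Rˣ} (h : Mono g 1 u)
    (hu : ∀ i, (d (u i)).snd = 0) : m.δ d g = 0 :=
  m.F_eq_zero (m.δ_mem hd g) fun i => by rw [m.mono_δ h, hu, zero_smul]

theorem kill (hd : ∀ r, (d r).fst = ρ r) (f : Fin 5 ↪ ℕ) {Ξ : Λ}
    (h : ∀ i j, Ξ * m.e (f i) j = 0) (g : SG (Fin 5) R) :
    Ξ * m.δ d (mp f (RingHom.id R) g) = 0 := by
  have : Ξ * m.π ρ (mp f (RingHom.id R) g) = Ξ ∧ Ξ * m.δ d (mp f (RingHom.id R) g) = 0 := by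
    induction g using SG.ind with
    | h1 => simp [π_one, δ_one]
    | hX i j a hij =>
      rw [mp_X, π_X _ (f.injective.ne hij), δ_X _ (f.injective.ne hij), mul_add, mul_smul_comm,
        mul_smul_comm, h]
      simp
    | hm g g' hg hg' =>
      rw [map_mul, π_mul, m.δ_mul hd, mul_add, ← mul_assoc, ← mul_assoc, ← mul_assoc, hg.1, hg.2,
        hg'.1, hg'.2]
      simp
  exact this.2

theorem conj (g : SG ℕ R) (x : Λ) : m.τ x = m.τ (m.π ρ g * x * m.π ρ g⁻¹) := by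
  rw [m.comm, ← mul_assoc, π_inv_mul, one_mul]

end Mdl

theorem snd_inv {ρ : R →+* B} {d : R →+* DualNumber B} (hd : ∀ r, (d r).fst = ρ r) (u : Rˣ) :
    ρ u * (d (u⁻¹ : Rˣ)).snd = -((d u).snd * ρ (u⁻¹ : Rˣ)) := by
  have h := congrArg (fun r => (d r).snd) u.mul_inv
  simp only [map_mul, DualNumber.snd_mul, hd, map_one, TrivSqZeroExt.snd_one] at h
  exact eq_neg_of_add_eq_zero_left h

theorem snd_inv_zero {ρ : R →+* B} {d : R →+* DualNumber B} (hd : ∀ r, (d r).fst = ρ r) {u : Rˣ}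
    (h : (d u).snd = 0) : (d (u⁻¹ : Rˣ)).snd = 0 := by
  have h1 := snd_inv hd u
  rw [h, zero_mul, neg_zero] at h1
  have h2 : ρ (u⁻¹ : Rˣ) * ρ u = 1 := by rw [← map_mul, Units.inv_mul, map_one]
  rw [← one_mul (d (u⁻¹ : Rˣ)).snd, ← h2, mul_assoc, h1, mul_zero]

variable {D : Dat R} (E : Det D B)

/-- the 3-cocycle -/
def c₃ (g₁ g₂ g₃ : SG ℕ R) : B :=
  m.τ (m.δ E.dx g₁ * m.δ E.dt g₂ * m.δ E.dy g₃ * m.π E.ρ (g₁ * g₂ * g₃)⁻¹)

/-- the 2-cocycle -/
def c₂ (g h : SG ℕ R) : B := m.τ (m.δ E.dt g * m.δ E.dy h * m.π E.ρ (g * h)⁻¹)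

theorem coc3 : Coc3 (c₃ m E) := by
  intro a b d e
  have h1 : c₃ m E b d e = m.τ (m.π E.ρ a * m.δ E.dx b * m.δ E.dt d * m.δ E.dy e *
      m.π E.ρ (a * b * d * e)⁻¹) := by
    rw [c₃, m.conj (ρ := E.ρ) a]
    simp only [mul_inv_rev, m.π_mul, mul_assoc]
  have h2 : c₃ m E a b d = m.τ (m.δ E.dx a * m.δ E.dt b * m.δ E.dy d * m.π E.ρ e *
      m.π E.ρ (a * b * d * e)⁻¹) := by
    rw [c₃, mul_assoc _ (m.π E.ρ e), ← m.π_mul]
    congr 3
    group
  rw [h1, h2]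
  simp only [c₃, m.δ_mul E.fx, m.δ_mul E.ft, m.δ_mul E.fy, mul_add, add_mul, map_add, mul_assoc]
  ring

theorem coc2 : Coc2 (c₂ m E) := by
  intro a b d
  have h1 : c₂ m E b d = m.τ (m.π E.ρ a * m.δ E.dt b * m.δ E.dy d * m.π E.ρ (a * b * d)⁻¹) := by
    rw [c₂, m.conj (ρ := E.ρ) a]
    simp only [mul_inv_rev, m.π_mul, mul_assoc]
  have h2 : c₂ m E a b = m.τ (m.δ E.dt a * m.δ E.dy b * m.π E.ρ d * m.π E.ρ (a * b * d)⁻¹) := by
    rw [c₂, mul_assoc _ (m.π E.ρ d), ← m.π_mul]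
    congr 3
    group
  rw [h1, h2]
  simp only [c₂, m.δ_mul E.ft, m.δ_mul E.fy, mul_add, add_mul, map_add, mul_assoc]
  ring

theorem δT {d : R →+* DualNumber B} (hd : ∀ r, (d r).fst = E.ρ r) (h : (d D.τ).snd = 0) :
    m.δ d D.T = 0 := by
  refine m.δ_eq_zero hd D.mono_T fun i => ?_
  unfold Dat.dT
  split_ifs
  · exact h
  · exact snd_inv_zero hd h
  · simp

theorem Θ_e (i j : ℕ) : m.π E.ρ D.T⁻¹ * m.δ E.dx D.T * m.e i j =
    ((E.dx (D.dT i)).snd * E.ρ ((D.dT i)⁻¹ : Rˣ)) • m.e i j := by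
  rw [mul_assoc, m.mono_δ D.mono_T, mul_smul_comm, m.mono_π D.mono_T.dinv, smul_smul]

theorem sl_eq (f : Fin 5 ↪ ℕ) {l : B}
    (hl : ∀ i, (E.dx (D.dT (f i))).snd * E.ρ ((D.dT (f i))⁻¹ : Rˣ) = l) (g : SG (Fin 5) R)
    (h : SG ℕ R) :
    sl (c₃ m E) D.T (mp f (RingHom.id R) g) h = l * c₂ m E (mp f (RingHom.id R) g) h := by
  have hk := m.kill E.ft f (Ξ := m.π E.ρ D.T⁻¹ * m.δ E.dx D.T - l • 1)
    (fun i j => by rw [sub_mul, Θ_e, hl, smul_mul_assoc, one_mul, sub_self]) g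
  rw [sub_mul, smul_mul_assoc, one_mul, sub_eq_zero] at hk
  simp only [sl, c₃, c₂, δT m E E.ft E.tτ, δT m E E.fy E.yτ, mul_zero, zero_mul, map_zero,
    sub_zero, add_zero]
  rw [mul_assoc D.T, mul_inv_rev, m.π_mul, ← mul_assoc, m.comm, ← mul_assoc, ← mul_assoc,
    ← mul_assoc, hk, smul_mul_assoc, smul_mul_assoc, map_smul, smul_eq_mul]

theorem c₂_left {g : SG ℕ R} (hg : m.δ E.dt g = 0) (h : SG ℕ R) : c₂ m E g h = 0 := by
  simp [c₂, hg]

theorem c₂_right (g : SG ℕ R) {h : SG ℕ R} (hh : m.δ E.dy h = 0) : c₂ m E g h = 0 := by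
  simp [c₂, hh]

section β
variable {β : SG ℕ R → B} (hβ : ∀ a b, β (a * b) = β a + β b + c₂ m E a b)
include hβ

theorem β_X {i j : ℕ} (hij : i ≠ j) (r : R) : β (X i j r) = 0 := by
  obtain ⟨l, hi, hj, -⟩ := five_nat i j i j
  have h := X_sys.st (I := ℕ) (R := R) hi.symm hj hij r 1
  rw [mul_one, commutatorElement_def, mul_inv_eq_iff_eq_mul, mul_inv_eq_iff_eq_mul,
    mul_assoc] at h
  have h1 := congrArg β h
  have hy : m.δ E.dy (X l j (1 : R)) = 0 := by rw [m.δ_X hj]; simp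
  have ht : m.δ E.dt (X l j (1 : R)) = 0 := by rw [m.δ_X hj]; simp
  have h2 : c₂ m E (X i j r) (X l j 1 * X i l r) = 0 := by
    rw [c₂, m.δ_mul E.fy, hy, zero_mul, add_zero, m.π_X hj, m.δ_X hij, m.δ_X hi.symm]
    simp [add_mul, m.mul_ne hij.symm]
  rw [hβ, hβ, hβ, c₂_right m E _ hy, c₂_left m E ht, h2] at h1
  linear_combination -h1

theorem β_hw {p q : ℕ} (hpq : p ≠ q) {a b : R} {s : Rˣ} (hs : (s : R) = 1 + a * b)
    (h1 : (E.dt s).snd = 0) (h2 : (E.dt b).snd = 0) :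
    β (hw p q a b ((s⁻¹ : Rˣ) : R)) = (E.dt a).snd * (E.dy b).snd := by
  have h3 := snd_inv_zero E.ft h1
  have h4 : m.δ E.dt (hw p q a b ((s⁻¹ : Rˣ) : R)) = 0 := by
    refine m.δ_eq_zero E.ft (mono_hw hpq hs) fun i => ?_
    unfold dg
    split_ifs
    · exact h1
    · exact h3
    · simp
  have h5 : hw p q a b ((s⁻¹ : Rˣ) : R) * X p q (a * ((s⁻¹ : Rˣ) : R)) =
      X q p (-(b * ((s⁻¹ : Rˣ) : R))) * (X p q a * X q p b) := by
    rw [hw, mul_assoc, X_add, neg_add_cancel, X_zero, mul_one, mul_assoc]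
  have h6 := congrArg β h5
  have h7 : m.δ E.dt (X q p (-(b * ((s⁻¹ : Rˣ) : R)))) = 0 := by
    rw [m.δ_X hpq.symm, map_neg, map_mul, TrivSqZeroExt.snd_neg, DualNumber.snd_mul, h2, h3]
    simp
  rw [hβ, hβ, hβ, c₂_left m E h4, c₂_left m E h7, β_X m E hβ hpq, β_X m E hβ hpq,
    β_X m E hβ hpq.symm, β_X m E hβ hpq.symm] at h6
  simp only [add_zero, zero_add] at h6
  rw [h6, c₂, mul_inv_rev, X_inv, X_inv, m.π_mul, m.δ_X hpq, m.δ_X hpq.symm, m.π_X hpq,
    m.π_X hpq.symm, smul_mul_smul_comm, m.mul_eq, smul_mul_assoc, map_smul, ← mul_assoc]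
  simp [mul_add, m.mul_ne hpq, m.mul_eq, m.one, m.off hpq]

theorem β_k : β (ι₁ R D.k) = -((E.dt D.a).snd * (E.dy (D.y ^ 2)).snd) := by
  have h1 : ι₁ R D.k * hw 0 1 D.a (D.y ^ 2) ((D.s⁻¹ : Rˣ) : R) =
      hw 0 1 (D.a * D.y ^ 2) 1 ((D.s⁻¹ : Rˣ) : R) := by
    rw [Dat.k, ι₁, map_mul, map_inv, mp_hw, mp_hw]
    exact inv_mul_cancel_right _ _
  have h2 := congrArg β h1
  have h3 : m.δ E.dt (ι₁ R D.k) = 0 := m.δ_eq_zero E.ft D.mono_ι₁_k fun i => by simp
  have h4 : (E.dt (D.y ^ 2)).snd = 0 := by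
    rw [sq, map_mul, DualNumber.snd_mul, E.ty]; simp
  rw [hβ, c₂_left m E h3, β_hw m E hβ zero_ne_one D.hs E.ts h4,
    β_hw m E hβ zero_ne_one (by rw [mul_one]; exact D.hs) E.ts (by simp)] at h2
  simp only [map_one, TrivSqZeroExt.snd_one, mul_zero, add_zero] at h2
  exact eq_neg_of_add_eq_zero_left h2

end β

end NZ

theorem nonzero {R B : Type} [CommRing R] [CommRing B] (D : Dat R) (E : Det D B) :
    ∃ (c : SG ℕ R → SG ℕ R → SG ℕ R → B) (m : B),
      Coc3 c ∧ IsZ c D.T (ι₁ R) (ι₂ R) D.k m ∧ m ≠ 0 := by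
  obtain ⟨m⟩ := NZ.exists_mdl B
  obtain ⟨β, hβ⟩ := cc_nat (R := R) B _ (NZ.coc2 m E)
  set l : B := (E.dx D.τ).snd * E.ρ (D.τ⁻¹ : Rˣ) with hl
  have h1 : ∀ i, (E.dx (D.dT (e₁ i))).snd * E.ρ ((D.dT (e₁ i))⁻¹ : Rˣ) = l := by
    intro i
    have : D.dT (e₁ i) = D.τ := if_pos i.2
    rw [this]
  have h2 : ∀ i, (E.dx (D.dT (e₂ i))).snd * E.ρ ((D.dT (e₂ i))⁻¹ : Rˣ) = -l := by
    intro i
    have : D.dT (e₂ i) = D.τ⁻¹ := by
      have h := i.2
      have h' : e₂ i = i.val + 5 := rfl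
      rw [Dat.dT, h', if_neg (by omega), if_pos (by omega)]
    rw [this, inv_inv, mul_comm, NZ.snd_inv E.fx]
  refine ⟨NZ.c₃ m E, l * β (ι₁ R D.k) - -l * β (ι₂ R D.k), NZ.coc3 m E,
    ⟨fun g => l * β (ι₁ R g), fun g => -l * β (ι₂ R g), fun a b => ?_, fun a b => ?_, rfl⟩, ?_⟩
  · have := NZ.sl_eq m E e₁ h1 a (ι₁ R b)
    simp only [map_mul, hβ]
    rw [ι₁] at this ⊢
    rw [this]; ring
  · have := NZ.sl_eq m E e₂ h2 a (ι₂ R b)
    simp only [map_mul, hβ]
    rw [ι₂] at this ⊢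
    rw [this]; ring
  · rw [← D.k_eq, NZ.β_k m E hβ]
    intro h
    refine E.ne ?_
    have h3 : E.ρ (D.τ⁻¹ : Rˣ) * E.ρ D.τ = 1 := by rw [← map_mul, Units.inv_mul, map_one]
    rw [hl] at h
    linear_combination (-E.ρ D.τ) * h -
      2 * (E.dx D.τ).snd * ((E.dy (D.y ^ 2)).snd * (E.dt D.a).snd) * h3

end Crest.Agent.R171
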