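import Crest.Agent.R171.Defs

/-! Row 171: the ramified regular local ring `ℤ[t, y, τ] / (τ² + τ - 1 + t y⁵)` at `(τ - 2, y)`. -/

set_option autoImplicit false

namespace Crest.Agent.R171

namespace Ring

open Polynomial

theorem q_monic {R : Type} [CommRing R] [Nontrivial R] (c : R) :
    (Polynomial.X ^ 2 + Polynomial.X + C c : R[X]).Monic := by monicity!

theorem q_natDegree {R : Type} [CommRing R] [Nontrivial R] (c : R) :
    (Polynomial.X ^ 2 + Polynomial.X + C c : R[X]).natDegree = 2 := by compute_degree!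

theorem q_degree {R : Type} [CommRing R] [Nontrivial R] (c : R) :
    (Polynomial.X ^ 2 + Polynomial.X + C c : R[X]).degree ≠ 0 := by
  rw [degree_eq_natDegree (q_monic c).ne_zero, q_natDegree]; decide

theorem q_prime {R : Type} [CommRing R] [IsDomain R] [UniqueFactorizationMonoid R] (c : R)
    (φ : R →+* ℤ) (hc : φ c = -1) : Prime (Polynomial.X ^ 2 + Polynomial.X + C c : R[X]) := by
  refine Irreducible.prime ?_
  rw [(q_monic c).irreducible_iff_roots_eq_zero_of_degree_le_three (by rw [q_natDegree])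
    (by rw [q_natDegree]; norm_num), Multiset.eq_zero_iff_forall_notMem]
  intro r hr
  have h := (mem_roots (q_monic c).ne_zero).1 hr
  simp only [IsRoot.def, eval_add, eval_pow, eval_X, eval_C] at h
  have h' := congrArg φ h
  rw [map_add, map_add, map_pow, hc, map_zero] at h'
  have h2 : Even (φ r * (φ r + 1)) := Int.even_mul_succ_self _
  have h3 : φ r * (φ r + 1) = 1 := by linear_combination h'
  rw [h3] at h2
  exact absurd h2 (by decide)

abbrev B0 : Type := ℤ[X]
abbrev B1 : Type := B0[X]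

noncomputable def c0 : B1 := C Polynomial.X * Polynomial.X ^ 5 - 1
noncomputable def f0 : B1[X] := Polynomial.X ^ 2 + Polynomial.X + C c0

abbrev A0 : Type := AdjoinRoot f0

noncomputable def tt : A0 := AdjoinRoot.of f0 (C Polynomial.X)
noncomputable def yy : A0 := AdjoinRoot.of f0 Polynomial.X
noncomputable def ta : A0 := AdjoinRoot.root f0

section lf
variable {S : Type} [CommRing S]

noncomputable def ev (T Y : S) : B1 →+* S :=
  eval₂RingHom (eval₂RingHom (Int.castRingHom S) T) Y

theorem ev_t (T Y : S) : ev T Y (C Polynomial.X) = T := by simp [ev]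
theorem ev_y (T Y : S) : ev T Y Polynomial.X = Y := by simp [ev]
theorem ev_c (T Y : S) : ev T Y c0 = T * Y ^ 5 - 1 := by
  rw [c0, map_sub, map_mul, map_pow, ev_t, ev_y, map_one]

noncomputable def lf (T Y Z : S) (h : Z ^ 2 + Z - 1 + T * Y ^ 5 = 0) : A0 →+* S :=
  AdjoinRoot.lift (ev T Y) Z (by
    rw [f0, eval₂_add, eval₂_add, eval₂_X_pow, eval₂_X, eval₂_C, ev_c]
    linear_combination h)

theorem lf_t (T Y Z : S) (h) : lf T Y Z h tt = T := by
  rw [lf, tt]; exact (AdjoinRoot.lift_of _).trans (ev_t T Y)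
theorem lf_y (T Y Z : S) (h) : lf T Y Z h yy = Y := by
  rw [lf, yy]; exact (AdjoinRoot.lift_of _).trans (ev_y T Y)
theorem lf_ta (T Y Z : S) (h) : lf T Y Z h ta = Z := AdjoinRoot.lift_root _

theorem a0_ext {g g' : A0 →+* S} (h1 : g tt = g' tt) (h2 : g yy = g' yy) (h3 : g ta = g' ta) :
    g = g' := by
  refine AdjoinRoot.ringHom_ext ?_ h3
  refine Polynomial.ringHom_ext' ?_ h2
  exact Polynomial.ringHom_ext' (RingHom.ext_int _ _) h1

theorem five_zero (φ : ZMod 5 →+* S) : (5 : S) = 0 := by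
  rw [← map_ofNat φ 5, show (OfNat.ofNat 5 : ZMod 5) = 0 from rfl, map_zero]

end lf

theorem rel0 : ta ^ 2 + ta - 1 + tt * yy ^ 5 = 0 := by
  have h := AdjoinRoot.eval₂_root f0
  rw [show f0.eval₂ (AdjoinRoot.of f0) (AdjoinRoot.root f0) =
    (Polynomial.X ^ 2 + Polynomial.X + C c0 : B1[X]).eval₂ (AdjoinRoot.of f0) (AdjoinRoot.root f0) from rfl,
    eval₂_add, eval₂_add, eval₂_X_pow, eval₂_X, eval₂_C, c0, map_sub, map_mul, map_pow,
    map_one] at h
  unfold ta tt yy
  linear_combination h

instance : IsDomain A0 :=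
  AdjoinRoot.isDomain_of_prime (q_prime c0 (ev 0 0) (by rw [ev_c]; norm_num))

theorem of_inj : Function.Injective (AdjoinRoot.of f0) :=
  AdjoinRoot.of.injective_of_degree_ne_zero (q_degree c0)

instance : CharZero A0 := (RingHom.charZero_iff of_inj).1 inferInstance

theorem yy_ne : yy ≠ 0 := fun h => X_ne_zero (of_inj (h.trans (map_zero _).symm))

instance : Fact (Nat.Prime 5) := ⟨by norm_num⟩

abbrev F5 : Type := (ZMod 5)[X]

theorem five_F5 : (5 : F5) = 0 := five_zero C

noncomputable def chi : A0 →+* F5 := lf Polynomial.X 0 2 (by linear_combination five_F5)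

noncomputable def pp : Ideal A0 := RingHom.ker chi

instance : pp.IsPrime := RingHom.ker_isPrime chi

theorem five_eq : (5 : A0) = -((ta - 2) * (ta - 2) + 5 * (ta - 2) + tt * yy ^ 3 * (yy * yy)) := by
  linear_combination rel0

theorem pp_eq : pp = Ideal.span {ta - 2, yy} := by
  apply le_antisymm
  · set I : Ideal A0 := Ideal.span {ta - 2, yy} with hI
    have hx : Ideal.Quotient.mk I (ta - 2) = 0 :=
      Ideal.Quotient.eq_zero_iff_mem.2 (Ideal.subset_span (by simp))
    have hy : Ideal.Quotient.mk I yy = 0 :=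
      Ideal.Quotient.eq_zero_iff_mem.2 (Ideal.subset_span (by simp))
    have h5 : ((5 : ℕ) : A0 ⧸ I) = 0 := by
      have := congrArg (Ideal.Quotient.mk I) five_eq
      rw [map_neg, map_add, map_add, map_mul, map_mul, map_mul, map_mul _ yy yy, hx, hy] at this
      rw [map_ofNat] at this
      simpa using this
    let σ : F5 →+* A0 ⧸ I :=
      eval₂RingHom (ZMod.castHom (ringChar.dvd h5) (A0 ⧸ I)) (Ideal.Quotient.mk I tt)
    have hσ : σ.comp chi = Ideal.Quotient.mk I := by
      refine a0_ext ?_ ?_ ?_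
      · rw [RingHom.comp_apply, chi, lf_t]; simp [σ]
      · rw [RingHom.comp_apply, chi, lf_y, map_zero, hy]
      · rw [RingHom.comp_apply, chi, lf_ta, map_ofNat]
        rw [map_sub, map_ofNat, sub_eq_zero] at hx
        exact hx.symm
    intro a ha
    rw [← Ideal.Quotient.eq_zero_iff_mem, ← hσ, RingHom.comp_apply, (RingHom.mem_ker).1 ha,
      map_zero]
  · rw [Ideal.span_le]
    intro a ha
    simp only [Set.mem_insert_iff, Set.mem_singleton_iff] at ha
    rcases ha with rfl | rfl
    · change chi (ta - 2) = 0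
      rw [map_sub, chi, lf_ta, map_ofNat, sub_self]
    · change chi yy = 0
      rw [chi, lf_y]

noncomputable def g0 : B0[X] := Polynomial.X ^ 2 + Polynomial.X + C (-1)

abbrev O : Type := AdjoinRoot g0

instance : IsDomain O :=
  AdjoinRoot.isDomain_of_prime (q_prime (-1) (evalRingHom 0) (by simp))

instance : CharZero O :=
  (RingHom.charZero_iff (AdjoinRoot.of.injective_of_degree_ne_zero (q_degree (-1 : B0)))).1
    inferInstance

noncomputable def psi : A0 →+* O := lf (AdjoinRoot.of g0 Polynomial.X) 0 (AdjoinRoot.root g0) (by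
  have h := AdjoinRoot.eval₂_root g0
  rw [show g0.eval₂ (AdjoinRoot.of g0) (AdjoinRoot.root g0) =
    (Polynomial.X ^ 2 + Polynomial.X + C (-1) : B0[X]).eval₂ (AdjoinRoot.of g0) (AdjoinRoot.root g0) from rfl,
    eval₂_add, eval₂_add, eval₂_X_pow, eval₂_X, eval₂_C, map_neg, map_one] at h
  linear_combination h)

noncomputable def chi' : O →+* F5 :=
  AdjoinRoot.lift (eval₂RingHom (Int.castRingHom F5) Polynomial.X) 2 (by
    rw [g0, eval₂_add, eval₂_add, eval₂_X_pow, eval₂_X, eval₂_C, map_neg, map_one]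
    linear_combination five_F5)

theorem chi_eq : chi'.comp psi = chi := by
  refine a0_ext ?_ ?_ ?_
  · rw [RingHom.comp_apply, psi, lf_t, chi, lf_t]
    exact (AdjoinRoot.lift_of _).trans (by simp)
  · rw [RingHom.comp_apply, psi, lf_y, chi, lf_y, map_zero]
  · rw [RingHom.comp_apply, psi, lf_ta, chi, lf_ta]
    exact AdjoinRoot.lift_root _

theorem two_le_height : (2 : ℕ∞) ≤ pp.height := by
  have : (RingHom.ker psi).IsPrime := RingHom.ker_isPrime psi
  have h1 : (⊥ : Ideal A0) < RingHom.ker psi := by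
    refine bot_lt_iff_ne_bot.2 fun h => yy_ne ?_
    rw [← Ideal.mem_bot, ← h, RingHom.mem_ker, psi, lf_y]
  have h2 : RingHom.ker psi < pp := by
    refine lt_of_le_of_ne (fun a ha => ?_) fun h => ?_
    · change chi a = 0
      rw [← chi_eq, RingHom.comp_apply, (RingHom.mem_ker).1 ha, map_zero]
    · have h5 : (5 : A0) ∈ pp := by
        change chi 5 = 0
        rw [map_ofNat, five_F5]
      rw [← h, RingHom.mem_ker, map_ofNat] at h5
      exact absurd h5 (by norm_num)
  have h3 := Ideal.height_add_one_le_of_lt_of_isPrime h1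
  have h4 := Ideal.height_add_one_le_of_lt_of_isPrime h2
  calc (2 : ℕ∞) = 0 + 1 + 1 := by norm_num
    _ ≤ (⊥ : Ideal A0).height + 1 + 1 := by gcongr; exact zero_le
    _ ≤ (RingHom.ker psi).height + 1 := by gcongr
    _ ≤ _ := h4

abbrev A : Type := Localization.AtPrime pp

theorem alg_inj : Function.Injective (algebraMap A0 A) :=
  IsLocalization.injective A pp.primeCompl_le_nonZeroDivisors

theorem max_eq : IsLocalRing.maximalIdeal A =
    Ideal.span {algebraMap A0 A (ta - 2), algebraMap A0 A yy} := by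
  rw [← Localization.AtPrime.map_eq_maximalIdeal]
  have : Ideal.map (algebraMap A0 A) pp = Ideal.map (algebraMap A0 A) (Ideal.span {ta - 2, yy}) :=
    congrArg _ pp_eq
  rw [this, Ideal.map_span, Set.image_pair]

theorem span_le : (IsLocalRing.maximalIdeal A).spanFinrank ≤ 2 := by
  rw [max_eq]
  refine (Submodule.spanFinrank_span_le_ncard_of_finite (Set.toFinite _)).trans ?_
  exact (Set.ncard_insert_le _ _).trans (by simp)

theorem two_le_dim : (2 : WithBot ℕ∞) ≤ ringKrullDim A := by
  rw [IsLocalization.AtPrime.ringKrullDim_eq_height pp A]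
  exact WithBot.coe_le_coe.2 two_le_height

theorem span_le' : ((IsLocalRing.maximalIdeal A).spanFinrank : WithBot ℕ∞) ≤ 2 := by
  exact_mod_cast span_le

theorem regular : IsRegularLocalRing A :=
  IsRegularLocalRing.of_spanFinrank_maximalIdeal_le A (span_le'.trans two_le_dim)

theorem dim_eq : ringKrullDim A = 2 :=
  le_antisymm ((ringKrullDim_le_spanFinrank_maximalIdeal A).trans span_le') two_le_dim

theorem five_mem : (5 : A) ∈ IsLocalRing.maximalIdeal A ^ 2 := by
  have hx : algebraMap A0 A (ta - 2) ∈ IsLocalRing.maximalIdeal A := by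
    rw [max_eq]; exact Ideal.subset_span (by simp)
  have hy : algebraMap A0 A yy ∈ IsLocalRing.maximalIdeal A := by
    rw [max_eq]; exact Ideal.subset_span (by simp)
  have e := congrArg (algebraMap A0 A) five_eq
  rw [map_neg, map_add, map_add, map_mul, map_mul, map_mul, map_mul _ yy yy, map_ofNat] at e
  have h5 : (5 : A) ∈ IsLocalRing.maximalIdeal A := by
    rw [e]
    exact neg_mem (add_mem (add_mem (Ideal.mul_mem_left _ _ hx) (Ideal.mul_mem_left _ _ hx))
      (Ideal.mul_mem_left _ _ (Ideal.mul_mem_left _ _ hy)))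
  rw [e, sq]
  exact neg_mem (add_mem (add_mem (Ideal.mul_mem_mul hx hx) (Ideal.mul_mem_mul h5 hx))
    (Ideal.mul_mem_left _ _ (Ideal.mul_mem_mul hy hy)))

theorem unit_of_chi {a : A0} (h : chi a ≠ 0) : IsUnit (algebraMap A0 A a) :=
  (IsLocalization.AtPrime.isUnit_to_map_iff A pp a).2 h

theorem two_ne : (2 : F5) ≠ 0 := fun h =>
  one_ne_zero (α := F5) (by linear_combination 3 * h - five_F5)

noncomputable def tau : Aˣ := (unit_of_chi (a := ta) (by rw [chi, lf_ta]; exact two_ne)).unit

theorem tau_val : (tau : A) = algebraMap A0 A ta := rfl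

noncomputable def om : Aˣ := (unit_of_chi (a := 1 - ta) (by
  rw [map_sub, map_one, chi, lf_ta]
  exact fun h => one_ne_zero (α := F5) (by linear_combination -h))).unit

theorem om_val : (om : A) = 1 - tau := by
  rw [tau_val, ← map_one (algebraMap A0 A), ← map_sub]; rfl

noncomputable def dat : Dat A where
  τ := tau
  s := om * tau⁻¹ ^ 2
  y := algebraMap A0 A yy
  a := algebraMap A0 A tt * algebraMap A0 A yy ^ 3 * ((tau⁻¹ : Aˣ) : A) ^ 2
  hτ := by
    have h : (tau : A) * ((tau⁻¹ : Aˣ) : A) = 1 := tau.mul_inv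
    rw [Units.val_mul, Units.val_pow_eq_pow_val, om_val]
    linear_combination (-(1 - (tau : A)) * ((tau : A) * ((tau⁻¹ : Aˣ) : A) + 1)) * h
  hs := by
    have h : (tau : A) * ((tau⁻¹ : Aˣ) : A) = 1 := tau.mul_inv
    have e := congrArg (algebraMap A0 A) rel0
    rw [map_add, map_sub, map_add, map_pow, map_mul, map_pow, map_one, map_zero, ← tau_val] at e
    rw [Units.val_mul, Units.val_pow_eq_pow_val, om_val]
    linear_combination (-((tau⁻¹ : Aˣ) : A) ^ 2) * e + ((tau : A) * ((tau⁻¹ : Aˣ) : A) + 1) * h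

abbrev K : Type := FractionRing F5
abbrev B : Type := AdjoinRoot (Polynomial.X ^ 5 : K[X])

noncomputable def eta : B := AdjoinRoot.root _
noncomputable def tB : B := AdjoinRoot.of _ (algebraMap F5 K Polynomial.X)

theorem eta5 : eta ^ 5 = 0 := by
  rw [eta, ← AdjoinRoot.mk_X, ← map_pow, AdjoinRoot.mk_self]

theorem eta4 : eta ^ 4 ≠ 0 := by
  rw [eta, ← AdjoinRoot.mk_X, ← map_pow]
  exact AdjoinRoot.mk_ne_zero_of_natDegree_lt (monic_X_pow 5) (pow_ne_zero _ X_ne_zero) (by simp)

theorem five_B : (5 : B) = 0 :=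
  five_zero ((AdjoinRoot.of _).comp ((algebraMap F5 K).comp C))

theorem five_D : (5 : DualNumber B) = 0 := by
  rw [← map_ofNat (algebraMap B (DualNumber B)) 5, five_B, map_zero]

noncomputable def kap : B →+* K := AdjoinRoot.lift (RingHom.id K) 0 (by simp)

theorem unit_of_kap {b : B} (h : kap b ≠ 0) : IsUnit b := by
  induction b using AdjoinRoot.induction_on with
  | ih p =>
    have e : AdjoinRoot.mk (Polynomial.X ^ 5 : K[X]) p =
        AdjoinRoot.of _ (p.coeff 0) + eta * AdjoinRoot.mk _ p.divX := by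
      conv_lhs => rw [← p.X_mul_divX_add]
      rw [map_add, map_mul, AdjoinRoot.mk_X, AdjoinRoot.mk_C, add_comm]; rfl
    have h0 : p.coeff 0 ≠ 0 := by
      rw [kap, AdjoinRoot.lift_mk, eval₂_at_zero] at h
      exact h
    rw [e]
    exact IsNilpotent.isUnit_add_left_of_commute ⟨5, by rw [mul_pow, eta5, zero_mul]⟩
      ((IsUnit.mk0 _ h0).map _) (Commute.all _ _)

noncomputable def rho0 : A0 →+* B := lf tB eta 2 (by linear_combination five_B + tB * eta5)

theorem kap_rho0 : kap.comp rho0 = (algebraMap F5 K).comp chi := by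
  refine a0_ext ?_ ?_ ?_
  · rw [RingHom.comp_apply, RingHom.comp_apply, rho0, lf_t, chi, lf_t]
    exact AdjoinRoot.lift_of _
  · rw [RingHom.comp_apply, RingHom.comp_apply, rho0, lf_y, chi, lf_y, map_zero]
    exact AdjoinRoot.lift_root _
  · rw [RingHom.comp_apply, RingHom.comp_apply, rho0, lf_ta, chi, lf_ta, map_ofNat, map_ofNat]

theorem rho0_unit (a : pp.primeCompl) : IsUnit (rho0 a) := by
  refine unit_of_kap ?_
  rw [← RingHom.comp_apply, kap_rho0, RingHom.comp_apply]
  exact fun h => a.2 (IsFractionRing.injective F5 K (h.trans (map_zero _).symm))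

noncomputable def rho : A →+* B := IsLocalization.lift rho0_unit

theorem exists_der (T Y Z : DualNumber B) (h : Z ^ 2 + Z - 1 + T * Y ^ 5 = 0) (hT : T.fst = tB)
    (hY : Y.fst = eta) (hZ : Z.fst = 2) : ∃ d : A →+* DualNumber B, (∀ r, (d r).fst = rho r) ∧
      d (algebraMap A0 A tt) = T ∧ d (algebraMap A0 A yy) = Y ∧ d tau = Z := by
  let π : DualNumber B →+* B := (TrivSqZeroExt.fstHom B B B).toRingHom
  have h0 : π.comp (lf T Y Z h) = rho0 := by
    refine a0_ext ?_ ?_ ?_
    · rw [RingHom.comp_apply, lf_t, rho0, lf_t]; exact hT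
    · rw [RingHom.comp_apply, lf_y, rho0, lf_y]; exact hY
    · rw [RingHom.comp_apply, lf_ta, rho0, lf_ta]; exact hZ
  have hu : ∀ a : pp.primeCompl, IsUnit (lf T Y Z h a) := by
    intro a
    rw [TrivSqZeroExt.isUnit_iff_isUnit_fst]
    have := rho0_unit a
    rw [← h0] at this
    exact this
  have h1 : π.comp (IsLocalization.lift hu : A →+* DualNumber B) = rho := by
    refine IsLocalization.ringHom_ext pp.primeCompl ?_
    rw [RingHom.comp_assoc, IsLocalization.lift_comp, rho, IsLocalization.lift_comp, h0]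
  refine ⟨IsLocalization.lift hu, fun r => ?_, ?_, ?_, ?_⟩
  · rw [← h1]; rfl
  · rw [IsLocalization.lift_eq, lf_t]
  · rw [IsLocalization.lift_eq, lf_y]
  · rw [tau_val, IsLocalization.lift_eq, lf_ta]

open TrivSqZeroExt DualNumber in
theorem det : Nonempty (Det dat B) := by
  have hε : (ε : DualNumber B) * ε = 0 := eps_mul_eps
  have hη : (inl eta : DualNumber B) ^ 5 = 0 := by rw [inl_pow, eta5, inl_zero]
  have h2 : (2 : DualNumber B).fst = 2 := rfl
  have h2' : (2 : DualNumber B).snd = 0 := by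
    rw [show (2 : DualNumber B) = 1 + 1 by norm_num, snd_add, snd_one, add_zero]
  obtain ⟨dx, x0, -, -, x3⟩ := exists_der (inl tB) (inl eta) (2 + ε)
    (by linear_combination five_D + hε + ε * five_D + inl tB * hη) rfl rfl (by simp [h2])
  obtain ⟨dt, t0, t1, t2, t3⟩ := exists_der (inl tB + ε) (inl eta) 2
    (by linear_combination five_D + (inl tB + ε) * hη) (by simp) rfl h2
  obtain ⟨dy, y0, -, y2, y3⟩ := exists_der (inl tB) (inl eta + ε) 2
    (by linear_combination five_D + inl tB * hη + inl tB * (inl eta) ^ 4 * ε * five_D +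
      inl tB * (10 * (inl eta) ^ 3 + 10 * (inl eta) ^ 2 * ε + 5 * inl eta * ε ^ 2 + ε ^ 3) * hε)
    rfl (by simp) h2
  have t4 : dt ((tau⁻¹ : Aˣ) : A) = 3 := by
    have h := congrArg dt tau.mul_inv
    rw [map_mul, map_one, t3] at h
    linear_combination 3 * h - dt ((tau⁻¹ : Aˣ) : A) * five_D
  refine ⟨⟨rho, dx, dt, dy, x0, t0, y0, ?_, ?_, ?_, ?_, ?_⟩⟩
  · change (dt tau).snd = 0
    rw [t3, h2']
  · change (dy tau).snd = 0
    rw [y3, h2']
  · change (dt ((om * tau⁻¹ ^ 2 : Aˣ) : A)).snd = 0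
    rw [Units.val_mul, Units.val_pow_eq_pow_val, om_val, map_mul, map_pow, map_sub, map_one, t3, t4,
      show ((1 : DualNumber B) - 2) * 3 ^ 2 = 1 by linear_combination (-2) * five_D, snd_one]
  · change (dt (algebraMap A0 A yy)).snd = 0
    rw [t2, snd_inl]
  · change 2 * (dx tau).snd * ((dy (algebraMap A0 A yy ^ 2)).snd *
      (dt (algebraMap A0 A tt * algebraMap A0 A yy ^ 3 * ((tau⁻¹ : Aˣ) : A) ^ 2)).snd) ≠ 0
    rw [x3, map_pow, y2, map_mul, map_mul, map_pow, map_pow, t1, t2, t4,
      show (3 : DualNumber B) ^ 2 = -1 by linear_combination 2 * five_D, inl_pow]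
    have e1 : (2 + ε : DualNumber B).snd = 1 := by rw [snd_add, h2', snd_eps, zero_add]
    have e2 : ((inl eta + ε : DualNumber B) ^ 2).snd = 2 * eta := by
      simp [sq, two_mul]
    have e3 : ((inl tB + ε : DualNumber B) * inl (eta ^ 3) * -1).snd = -eta ^ 3 := by
      simp
    rw [e1, e2, e3]
    intro h
    exact eta4 (by linear_combination h + eta ^ 4 * five_B)

end Ring

theorem exists_ring : ∃ (A : Type) (_ : CommRing A) (_ : IsDomain A) (_ : IsRegularLocalRing A),
    ringKrullDim A = 2 ∧ CharZero A ∧ (5 : A) ∈ IsLocalRing.maximalIdeal A ^ 2 ∧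
      ∃ D : Dat A, D.y ≠ 0 ∧ ∃ (B : Type) (_ : CommRing B), Nonempty (Det D B) :=
  ⟨Ring.A, inferInstance, inferInstance, Ring.regular, Ring.dim_eq,
    (RingHom.charZero_iff Ring.alg_inj).1 inferInstance, Ring.five_mem, Ring.dat,
    fun h => Ring.yy_ne (Ring.alg_inj (h.trans (map_zero _).symm)), Ring.B, inferInstance, Ring.det⟩

end Crest.Agent.R171
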