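import Crest.Agent.R171.Coc
import Crest.Agent.R171.CC
import Crest.Agent.R171.Act

/-! Row 171: the class dies once `y` is invertible. -/

set_option autoImplicit false

open scoped commutatorElement

namespace Crest.Agent.R171

namespace Van

section gen
variable {I R : Type} [DecidableEq I] [CommRing R]

theorem conj_hw {g : SG I R} {p q : I} {u : Rˣ}
    (h1 : ∀ r, g * X p q r * g⁻¹ = X p q ((u : R) * r))
    (h2 : ∀ r, g * X q p r * g⁻¹ = X q p (((u⁻¹ : Rˣ) : R) * r)) (a b s' : R) :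
    g * hw p q a b s' * g⁻¹ = hw p q (u * a) (((u⁻¹ : Rˣ) : R) * b) s' := by
  have e : g * hw p q a b s' * g⁻¹ = (g * X q p (-(b * s')) * g⁻¹) * (g * X p q a * g⁻¹) *
      (g * X q p b * g⁻¹) * (g * X p q (-(a * s')) * g⁻¹) := by
    rw [hw]; group
  rw [e, h1, h1, h2, h2, hw]
  simp only [mul_neg, mul_assoc]

end gen

variable {F : Type} [CommRing F]

theorem act_HH01 (u : Fˣ) (a b s' : F) :
    HH (0 : Fin 5) 1 u * hw 0 1 a b s' * (HH 0 1 u)⁻¹ =
      hw 0 1 (((u * u : Fˣ) : F) * a) ((((u * u)⁻¹ : Fˣ) : F) * b) s' := by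
  have hm := mono_HH (show (0 : Fin 5) ≠ 1 by decide) u
  have hg : HH (0 : Fin 5) 1 u ∈ Gp F (· ≠ 2) := HH_mem_Gp (by decide) (by decide) u
  refine conj_hw (fun r => ?_) (fun r => ?_) a b s'
  · rw [hm.act hg rfl (by decide) (by decide) (by decide)]
    simp only [Equiv.Perm.one_apply, dg]
    congr 1
    simp; ring
  · rw [hm.act hg rfl (by decide) (by decide) (by decide)]
    simp only [Equiv.Perm.one_apply, dg]
    congr 1
    simp; ring

theorem act_HH02 (u : Fˣ) (a b s' : F) :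
    HH (0 : Fin 5) 2 u * hw 0 1 a b s' * (HH 0 2 u)⁻¹ =
      hw 0 1 ((u : F) * a) (((u⁻¹ : Fˣ) : F) * b) s' := by
  have hm := mono_HH (show (0 : Fin 5) ≠ 2 by decide) u
  have hg : HH (0 : Fin 5) 2 u ∈ Gp F (· ≠ 3) := HH_mem_Gp (by decide) (by decide) u
  refine conj_hw (fun r => ?_) (fun r => ?_) a b s'
  · rw [hm.act hg rfl (by decide) (by decide) (by decide)]
    simp [dg]
  · rw [hm.act hg rfl (by decide) (by decide) (by decide)]
    simp [dg, mul_comm]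

/-- the Steinberg relation -/
theorem steinberg (t v : F) (hv : v - t * v = 1) :
    hw (0 : Fin 5) 1 (-t) 1 v = hw 0 1 (-1) t v := by
  have hm := mono_ww (R := F) (show (1 : Fin 5) ≠ 0 by decide)
  have hg : (ww (1 : Fin 5) 0 : SG (Fin 5) F) ∈ Gp F (· ≠ 2) :=
    mul_mem (mul_mem (X_mem_Gp (by decide) (by decide) _) (X_mem_Gp (by decide) (by decide) _))
      (X_mem_Gp (by decide) (by decide) _)
  have h1 := hm.act hg (by decide) (show (1 : Fin 5) ≠ 0 by decide) (by decide) (by decide) t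
  have h2 : (X 0 1 (-t) : SG (Fin 5) F) =
      X 1 0 1 * X 0 1 (-1) * X 1 0 t * X 0 1 1 * X 1 0 (-1) := by
    have e : (X 1 0 1 * X 1 0 t * X 1 0 (-1) : SG (Fin 5) F) = X 1 0 t := by
      rw [X_add, X_add]; congr 1; ring
    rw [← e]
    simp only [Equiv.swap_apply_left, Equiv.swap_apply_right, if_true] at h1
    rw [if_neg (by decide)] at h1
    simp only [ww, mul_inv_rev, X_inv, neg_neg] at h1
    rw [show -t = ((-1 : Fˣ) : F) * t * ((1⁻¹ : Fˣ) : F) by simp, ← h1]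
    simp only [mul_assoc]
  have h3 : (X 1 0 (-(1 * v)) * X 1 0 1 : SG (Fin 5) F) = X 1 0 (-(t * v)) := by
    rw [X_add]; congr 1; linear_combination -hv
  have h4 : (X 0 1 1 * X 0 1 (-(-t * v)) : SG (Fin 5) F) = X 0 1 (-(-1 * v)) := by
    rw [X_add]; congr 1; linear_combination -hv
  have h5 : (X 1 0 (-1) * X 1 0 1 : SG (Fin 5) F) = 1 := by rw [X_add, neg_add_cancel, X_zero]
  rw [hw, hw, h2, ← h3, ← h4]
  simp only [mul_assoc]
  rw [← mul_assoc (X 1 0 (-1)) (X 1 0 1), h5]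
  simp only [one_mul]

/-- a lift of `diag (1 - τ, (1 - τ)⁻¹)` -/
def g₀ (D : Dat F) : SG (Fin 5) F := hw 0 1 (-1) D.τ (((D.τ * D.τ * D.s)⁻¹ : Fˣ) : F)

theorem g₀_fix (D : Dat F) : Commute (HH (0 : Fin 5) 1 D.τ) (g₀ D) := by
  set v : F := (((D.τ * D.τ * D.s)⁻¹ : Fˣ) : F) with hv
  have hv' : v - D.τ * v = 1 := by
    have : ((D.τ * D.τ * D.s : Fˣ) : F) * v = 1 := by rw [hv, Units.mul_inv]
    simp only [Units.val_mul] at this
    linear_combination v * D.hτ + this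
  have h1 : HH (0 : Fin 5) 2 D.τ * g₀ D * (HH 0 2 D.τ)⁻¹ = g₀ D := by
    rw [g₀, act_HH02, Units.inv_mul, mul_neg, mul_one, steinberg _ _ hv']
  have h2 := h1
  conv_lhs at h2 => rw [← h1, g₀, act_HH02, act_HH02]
  have h3 := act_HH01 D.τ (-1) D.τ v
  rw [← mul_assoc, ← mul_assoc, ← Units.val_mul, ← Units.val_mul, ← mul_inv_rev, ← h3] at h2
  exact mul_inv_eq_iff_eq_mul.1 h2

/-- a lift of `diag (s, s⁻¹)` that commutes with the lift of `diag (τ, τ⁻¹)` -/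
def h₀ (D : Dat F) : SG (Fin 5) F := g₀ D * (HH 0 1 D.τ)⁻¹ * (HH 0 1 D.τ)⁻¹

theorem h₀_comm (D : Dat F) : Commute (h₀ D) (HH (0 : Fin 5) 1 D.τ) :=
  ((g₀_fix D).symm.mul_left (Commute.refl _).inv_left).mul_left (Commute.refl _).inv_left

theorem mono_mp_h₀ (D : Dat F) (e : Fin 5 ↪ ℕ) :
    Mono (mp e (RingHom.id F) (h₀ D)) 1 (dg (e 0) (e 1) D.s) := by
  have hne : e 0 ≠ e 1 := e.injective.ne (by decide)
  have h1 := mono_hw (R := F) hne (a := -1) (b := D.τ) (s := D.τ * D.τ * D.s) (by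
    simp only [Units.val_mul]; linear_combination -D.hτ)
  have h2 := (mono_HH hne D.τ).dinv
  have h3 := (h1.dmul h2).dmul h2
  have e1 : mp e (RingHom.id F) (h₀ D) =
      hw (e 0) (e 1) (-1 : F) D.τ (((D.τ * D.τ * D.s)⁻¹ : Fˣ) : F) *
      (HH (e 0) (e 1) D.τ)⁻¹ * (HH (e 0) (e 1) D.τ)⁻¹ := by
    simp [h₀, g₀]
  rw [e1]
  refine h3.congr rfl fun i => ?_
  simp only [dg]
  split_ifs
  · rw [mul_comm (D.τ * D.τ)]; group
  · rw [mul_comm (D.τ * D.τ), inv_inv, mul_inv]; group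
  · simp

def κp : Fin 5 ↪ ℕ := ⟨![0, 6, 10, 11, 12], by decide⟩
def κm : Fin 5 ↪ ℕ := ⟨![5, 1, 13, 14, 15], by decide⟩
def κT : Fin 6 ↪ ℕ := ⟨![2, 3, 4, 7, 8, 9], by decide⟩
def κY : Fin 6 ↪ ℕ := ⟨![10, 11, 12, 13, 14, 15], by decide⟩

theorem perf_six : Perf (SG (Fin 6) F) := perf_SG (by decide)

/-- a diagonal element that is scalar on the range of `e` commutes with the image of `e` -/
theorem comm_mp {g : SG ℕ F} {d : ℕ → Fˣ} (h : Mono g 1 d) {I : Type} [DecidableEq I] (e : I ↪ ℕ)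
    (u : Fˣ) (hd : ∀ i, d (e i) = u) (a : SG I F) : Commute g (mp e (RingHom.id F) a) :=
  h.commute_Gp (P := fun n => d n = u) (fun _ _ hi hj => hi.trans hj.symm) (mp_mem_Gp e _ hd a)

end Van

open Van

theorem vanish {F M : Type} [CommRing F] [AddCommGroup M] (D : Dat F) (hy : IsUnit D.y)
    {c : SG ℕ F → SG ℕ F → SG ℕ F → M} (hc : Coc3 c) : IsZ c D.T (ι₁ F) (ι₂ F) D.k 0 := by
  obtain ⟨y, hy⟩ := hy
  obtain ⟨m, hm⟩ := exists_isZ hc cc_fin D.T_comm₁ D.T_comm₂ D.k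
  suffices m = 0 by rwa [this] at hm
  set h' : SG (Fin 5) F := hw 0 1 D.a (D.y ^ 2) ((D.s⁻¹ : Fˣ) : F) with hh'
  set Y₁ : SG (Fin 5) F := HH 0 1 y with hY₁
  have hk : D.k = ⁅Y₁, h'⁆ := by
    rw [commutatorElement_def, hh', hY₁, act_HH01, Dat.k, ← hy, sq, ← Units.val_mul, Units.inv_mul,
      mul_comm D.a]
  have hkc : ∀ g, Commute D.k g := D.mono_k.central (l := 2)
    (mul_mem (hw_mem_Gp (by decide) (by decide) _ _ _)
      (inv_mem (hw_mem_Gp (by decide) (by decide) _ _ _)))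
  have hke := D.k_eq
  rw [hk] at hm hkc hke
  rw [hm.eq_W hc perf_fin D.T_comm₁ D.T_comm₂ ι_comm hke (hkc _)]
  set Y := ι₁ F Y₁ * ι₂ F Y₁⁻¹ with hY
  set h := ι₁ F h' * ι₂ F h' with hh
  have mY : Mono Y 1 fun i => dg 0 1 y i * (dg 5 6 y i)⁻¹ := by
    have := (mono_HH (show (0 : ℕ) ≠ 1 by decide) y).dmul
      (mono_HH (show (5 : ℕ) ≠ 6 by decide) y).dinv
    simpa [hY, hY₁, ι₁, ι₂, e₁, e₂] using this
  have mh : Mono h 1 fun i => dg 0 1 D.s i * dg 5 6 D.s i := by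
    have := (mono_hw (show (0 : ℕ) ≠ 1 by decide) D.hs).dmul
      (mono_hw (show (5 : ℕ) ≠ 6 by decide) D.hs)
    simpa [hh, hh', ι₁, ι₂, e₁, e₂] using this
  have cTY : Commute D.T Y := (D.T_comm₁ _).mul_right (D.T_comm₂ _)
  have cTh : Commute D.T h := (D.T_comm₁ _).mul_right (D.T_comm₂ _)
  have cYh : Commute Y h := by
    have a1 : Y₁ * h' = ⁅Y₁, h'⁆ * (h' * Y₁) := by
      rw [commutatorElement_def]; group
    have a2 : Y₁⁻¹ * h' = ⁅Y₁, h'⁆⁻¹ * (h' * Y₁⁻¹) := by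
      have : ⁅Y₁, h'⁆⁻¹ = Y₁⁻¹ * ⁅Y₁, h'⁆⁻¹ * Y₁ := by
        rw [mul_assoc, (hkc _).inv_left.eq, inv_mul_cancel_left]
      rw [this, commutatorElement_def]; group
    rw [Commute, SemiconjBy, hY, hh, (ι_comm _ _).symm.mul_mul_mul_comm, ← map_mul, ← map_mul, a1,
      a2, map_mul (ι₁ F) ⁅_, _⁆, map_mul (ι₂ F) ⁅_, _⁆⁻¹, (ι_comm _ _).mul_mul_mul_comm, hke,
      ← map_mul, mul_inv_cancel, map_one, one_mul, map_mul, map_mul,
      (ι_comm _ _).mul_mul_mul_comm]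
  -- enlarge the eigenspaces of `Y`
  set Y₀ : SG (Fin 6) F := HH 0 3 y * HH 1 4 y * HH 2 5 y with hY₀
  set Y' := mp κY (RingHom.id F) Y₀ with hY'
  have mY' : Mono Y' 1 fun i => dg 10 13 y i * dg 11 14 y i * dg 12 15 y i := by
    have := ((mono_HH (show (10 : ℕ) ≠ 13 by decide) y).dmul
      (mono_HH (show (11 : ℕ) ≠ 14 by decide) y)).dmul (mono_HH (show (12 : ℕ) ≠ 15 by decide) y)
    simpa [hY', hY₀, κY] using this
  have cTκ : ∀ a, Commute D.T (mp κY (RingHom.id F) a) :=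
    comm_mp D.mono_T κY 1 fun i => by fin_cases i <;> simp [κY, Dat.dT]
  have chκ : ∀ a, Commute h (mp κY (RingHom.id F) a) :=
    comm_mp mh κY 1 fun i => by fin_cases i <;> simp [κY, dg]
  have w0 : W c D.T Y' h = 0 := W_perf hc perf_six _ cTκ cTh (fun a => (chκ a).symm) Y₀
  have w1 : W c D.T Y h = W c D.T (Y * Y') h := by
    rw [W_mul hc cTY (cTκ _) cTh cYh (chκ _).symm, w0, add_zero]
  rw [w1, W_cyc]
  have cT : Commute (Y * Y') D.T := (cTY.mul_right (cTκ _)).symm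
  have mZ := mY.dmul mY'
  generalize Y * Y' = Z at cT mZ ⊢
  have cp : ∀ a, Commute Z (mp κp (RingHom.id F) a) :=
    comm_mp mZ κp y fun i => by fin_cases i <;> simp [κp, dg]
  have cm : ∀ a, Commute Z (mp κm (RingHom.id F) a) :=
    comm_mp mZ κm y⁻¹ fun i => by fin_cases i <;> simp [κm, dg]
  have c0 : ∀ a, Commute Z (mp κT (RingHom.id F) a) :=
    comm_mp mZ κT 1 fun i => by fin_cases i <;> simp [κT, dg]
  set T₀ : SG (Fin 6) F := HH 0 3 D.τ * HH 1 4 D.τ * HH 2 5 D.τ with hT₀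
  have eT : D.T = mp κp (RingHom.id F) (HH 0 1 D.τ) * mp κm (RingHom.id F) (HH 0 1 D.τ)⁻¹ *
      mp κT (RingHom.id F) T₀ := by
    simp [Dat.T, hT₀, κp, κm, κT]
  have mp' := mono_mp_h₀ D κp
  have mm' := mono_mp_h₀ D κm
  set hp := mp κp (RingHom.id F) (h₀ D) with hhp
  set hm' := mp κm (RingHom.id F) (h₀ D) with hhm
  have pm : ∀ a, Commute hp (mp κm (RingHom.id F) a) :=
    comm_mp mp' κm 1 fun i => by fin_cases i <;> simp [κp, κm, dg]
  have p0 : ∀ a, Commute hp (mp κT (RingHom.id F) a) :=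
    comm_mp mp' κT 1 fun i => by fin_cases i <;> simp [κp, κT, dg]
  have mp₁ : ∀ a, Commute hm' (mp κp (RingHom.id F) a) :=
    comm_mp mm' κp 1 fun i => by fin_cases i <;> simp [κp, κm, dg]
  have m0 : ∀ a, Commute hm' (mp κT (RingHom.id F) a) :=
    comm_mp mm' κT 1 fun i => by fin_cases i <;> simp [κm, κT, dg]
  have pp : Commute hp (mp κp (RingHom.id F) (HH 0 1 D.τ)) := (h₀_comm D).map _
  have mm : Commute hm' (mp κm (RingHom.id F) (HH 0 1 D.τ)⁻¹) := (h₀_comm D).inv_right.map _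
  have w2 : W c Z hp D.T = 0 := by
    rw [eT, W_mul' hc (cp _) ((cp _).mul_right (cm _)) (c0 _) (pp.mul_right (pm _)) (p0 _),
      W_mul' hc (cp _) (cp _) (cm _) pp (pm _), W_cc hc cc_fin _ cp (h₀_comm D), W_swap,
      W_perf hc perf_fin _ cm (cp _) (fun a => (pm a).symm), W_swap,
      W_perf hc perf_six _ c0 (cp _) (fun a => (p0 a).symm)]
    simp
  have w3 : W c Z hm' D.T = 0 := by
    rw [eT, W_mul' hc (cm _) ((cp _).mul_right (cm _)) (c0 _) ((mp₁ _).mul_right mm) (m0 _),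
      W_mul' hc (cm _) (cp _) (cm _) (mp₁ _) mm, W_cc hc cc_fin _ cm (h₀_comm D).inv_right, W_swap,
      W_perf hc perf_fin _ cp (cm _) (fun a => (mp₁ a).symm), W_swap,
      W_perf hc perf_six _ c0 (cm _) (fun a => (m0 a).symm)]
    simp
  have pT : Commute hp D.T := eT ▸ (pp.mul_right (pm _)).mul_right (p0 _)
  have mT : Commute hm' D.T := eT ▸ ((mp₁ _).mul_right mm).mul_right (m0 _)
  have cz : ∀ g, Commute ((hp * hm')⁻¹ * h) g :=
    (((mp'.dmul mm').dinv.dmul mh).congr rfl fun i => by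
      by_cases hi : i < 7
      · interval_cases i <;> simp [κp, κm, dg]
      · obtain ⟨j, rfl⟩ : ∃ j, i = j + 7 := ⟨i - 7, by omega⟩
        simp [κp, κm, dg]).central_nat
  have w4 : W c Z ((hp * hm')⁻¹ * h) D.T = 0 := by
    rw [W_cyc]
    exact W_cc hc cc_nat (MonoidHom.id _) cz cT.symm
  rw [← mul_inv_cancel_left (hp * hm') h, W_mul hc ((cp _).mul_right (cm _)) (cz _).symm cT
    (pT.mul_left mT) (cz _), W_mul hc (cp _) (cm _) cT pT mT, w2, w3, w4]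
  simp

end Crest.Agent.R171
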